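import Vale.Agent.H76.BM

/-!
# Chord level sets of a centrally symmetric convex set

Sketch. `Lev_neg`: if `(x, z), (x, z') ∈ T` with `m ≤ z' - z` then `(-x, -z'), (-x, -z) ∈ T`
and `m ≤ -z - (-z')`.  `Lev_segment`: for `t = 0` the point is `p ∈ Lev T 0`; for `t > 0` the
point `y = (c / t) • x` is a convex combination of `x` and `-x`, so `y ∈ Lev T m`
(`Lev_convex`, `Lev_neg`), `p ∈ Lev T 0` (`Lev_of_nonpos`), and `Lev_combo` with weights
`1 - t`, `t` gives `(1 - t) • p + t • y ∈ Lev T (t * m)`.  `lintegral_seg`: the integrand is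
nonnegative on `[0, 1]` and its integral is `1/3 + r/6`.
-/

open MeasureTheory Set
open scoped Pointwise ENNReal

set_option linter.unusedSectionVars false

namespace Vale.Agent.H9.SymCyl

open Vale.Agent.H76

variable {X : Type*} [NormedAddCommGroup X] [NormedSpace ℝ X]

/-- The chord level sets of a centrally symmetric set are centrally symmetric. -/
theorem Lev_neg {T : Set (X × ℝ)} (hTs : ∀ p ∈ T, -p ∈ T) {x : X} {m : ℝ}
    (hx : x ∈ Lev T m) : -x ∈ Lev T m := by
  obtain ⟨z, z', hz, hz', hm⟩ := hx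
  refine ⟨-z', -z, ?_, ?_, by linarith⟩
  · simpa using hTs _ hz'
  · simpa using hTs _ hz

/-- The level set at height `m * t` contains `(1 - t) • P + [-t, t] • x` when `x` lies in the
level set at height `m`. -/
theorem Lev_segment {T : Set (X × ℝ)} (hTc : Convex ℝ T) (hTs : ∀ p ∈ T, -p ∈ T) {x : X}
    {m t : ℝ} (hx : x ∈ Lev T m) (ht0 : 0 ≤ t) (ht1 : t ≤ 1) :
    ∀ p ∈ Prod.fst '' T, ∀ c : ℝ, |c| ≤ t → (1 - t) • p + c • x ∈ Lev T (m * t) := by
  intro p hp c hc
  have hp0 : p ∈ Lev T 0 := by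
    rw [Lev_of_nonpos T le_rfl]
    exact hp
  rcases ht0.eq_or_lt with h0 | hpos
  · subst h0
    have hc0 : c = 0 := abs_eq_zero.mp (le_antisymm hc (abs_nonneg c))
    subst hc0
    simpa using hp0
  · have hct : |c / t| ≤ 1 := by
      rw [abs_div, abs_of_pos hpos]
      exact (div_le_one hpos).mpr hc
    obtain ⟨h1, h2⟩ := abs_le.mp hct
    have hy : (c / t) • x ∈ Lev T m := by
      have hcv := Lev_convex hTc m hx (Lev_neg hTs hx)
        (by linarith : (0 : ℝ) ≤ (1 + c / t) / 2) (by linarith : (0 : ℝ) ≤ (1 - c / t) / 2)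
        (by ring)
      have e : ((1 + c / t) / 2) • x + ((1 - c / t) / 2) • (-x) = (c / t) • x := by
        rw [smul_neg, ← sub_eq_add_neg, ← sub_smul]
        congr 1
        ring
      rw [e] at hcv
      exact hcv
    have hmem : (1 - t) • p + t • ((c / t) • x) ∈ (1 - t) • Lev T 0 + t • Lev T m :=
      Set.add_mem_add (Set.smul_mem_smul_set hp0) (Set.smul_mem_smul_set hy)
    have hcombo := Lev_combo hTc (by linarith : (0 : ℝ) ≤ 1 - t) ht0
      (by ring : (1 - t) + t = 1) 0 m hmem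
    have e1 : t • ((c / t) • x) = c • x := by
      rw [smul_smul, mul_div_cancel₀ c hpos.ne']
    have e2 : (1 - t) * 0 + t * m = m * t := by ring
    rw [e1, e2] at hcombo
    exact hcombo

theorem lintegral_seg (r : ℝ) (hr : 0 ≤ r) :
    ∫⁻ t in Ioc (0 : ℝ) 1, ENNReal.ofReal ((1 - t) ^ 2 + t * (1 - t) * r) =
      ENNReal.ofReal (1 / 3 + r / 6) := by
  have hd : ∀ t : ℝ, HasDerivAt
      (fun t : ℝ => t - t ^ 2 + t ^ 3 / 3 + r * (t ^ 2 / 2 - t ^ 3 / 3))
      ((1 - t) ^ 2 + t * (1 - t) * r) t := by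
    intro t
    have h1 : HasDerivAt (fun t : ℝ => t) 1 t := hasDerivAt_id' t
    have h2 : HasDerivAt (fun t : ℝ => t ^ 2) (2 * t) t := by
      refine (h1.pow 2).congr_deriv ?_
      simp
    have h3 : HasDerivAt (fun t : ℝ => t ^ 3) (3 * t ^ 2) t := by
      refine (h1.pow 3).congr_deriv ?_
      simp
    have h := ((h1.sub h2).add (h3.div_const 3)).add
      (((h2.div_const 2).sub (h3.div_const 3)).const_mul r)
    refine h.congr_deriv ?_
    ring
  have hcont : Continuous fun t : ℝ => (1 - t) ^ 2 + t * (1 - t) * r := by fun_prop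
  have hint : ∫ t in (0 : ℝ)..1, ((1 - t) ^ 2 + t * (1 - t) * r) = 1 / 3 + r / 6 := by
    have h := intervalIntegral.integral_eq_sub_of_hasDerivAt
      (f := fun t : ℝ => t - t ^ 2 + t ^ 3 / 3 + r * (t ^ 2 / 2 - t ^ 3 / 3))
      (f' := fun t : ℝ => (1 - t) ^ 2 + t * (1 - t) * r) (a := 0) (b := 1)
      (fun t _ => hd t) (hcont.intervalIntegrable _ _)
    rw [h]
    ring
  have hnn : ∀ t ∈ Ioc (0 : ℝ) 1, 0 ≤ (1 - t) ^ 2 + t * (1 - t) * r := fun t ht =>
    add_nonneg (sq_nonneg _) (mul_nonneg (mul_nonneg ht.1.le (sub_nonneg.mpr ht.2)) hr)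
  rw [← hint, intervalIntegral.integral_of_le zero_le_one,
    ofReal_integral_eq_lintegral_ofReal hcont.integrableOn_Ioc
      ((ae_restrict_iff' measurableSet_Ioc).mpr (Filter.Eventually.of_forall hnn))]

end Vale.Agent.H9.SymCyl
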