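import Vale.Agent.H9.SymCyl.Defs
import Vale.Agent.H9.SymCyl.LevSym

/-!
# Volume of a symmetric convex set with a long chord away from the centre

Let `T ⊆ X × ℝ` be compact, convex and centrally symmetric, with shadow `P = fst '' T`. If the
chord of `T` over `x` has length at least `m` and `r` is at most the gauge of `P` at `x`, then
`m * (1/3 + r/6) * ν P ≤ vol T`.
-/

open MeasureTheory Set
open scoped Pointwise ENNReal

set_option linter.unusedSectionVars false

namespace Vale.Agent.H9.SymCyl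

open Vale.Agent.H76

variable {X : Type*} [NormedAddCommGroup X] [NormedSpace ℝ X] [MeasurableSpace X]

/-- **Claim C.** -/
theorem claimC [BorelSpace X] [SecondCountableTopology X] (ν : Measure X) [SigmaFinite ν]
    [IsFiniteMeasureOnCompacts ν] (hSeg : HasSeg ν) {T : Set (X × ℝ)} (hT : IsCompact T)
    (hTc : Convex ℝ T) (hTs : ∀ p ∈ T, -p ∈ T) {x : X} {m r : ℝ} (hm : 0 ≤ m)
    (hx : x ∈ Lev T m) (hr : 0 ≤ r)
    (hxr : ∀ σ : ℝ, σ • x ∈ Prod.fst '' T → |σ| * r ≤ 1) :
    ENNReal.ofReal (m * (1 / 3 + r / 6)) * ν (Prod.fst '' T) ≤ (ν.prod volume) T := by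
  set P : Set X := Prod.fst '' T with hPdef
  have hP : IsCompact P := hT.image continuous_fst
  have hPc : Convex ℝ P := hTc.is_linear_image (LinearMap.fst ℝ X ℝ).isLinear
  have hPs : ∀ p ∈ P, -p ∈ P := by
    rintro _ ⟨q, hq, rfl⟩
    exact ⟨-q, hTs q hq, rfl⟩
  have hstep : ∀ t ∈ Ioc (0 : ℝ) 1,
      ENNReal.ofReal ((1 - t) ^ 2 + t * (1 - t) * r) * ν P ≤ ν (Lev T (m * t)) := by
    intro t ht
    exact hSeg P (Lev T (m * t)) x r t hP hPc hPs hr hxr ht.1.le ht.2
      (Lev_isCompact hT _).isClosed.measurableSet (Lev_segment hTc hTs hx ht.1.le ht.2)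
  calc ENNReal.ofReal (m * (1 / 3 + r / 6)) * ν P
      = ENNReal.ofReal m * (∫⁻ t in Ioc (0 : ℝ) 1,
          ENNReal.ofReal ((1 - t) ^ 2 + t * (1 - t) * r) * ν P) := by
        rw [lintegral_mul_const' _ _ hP.measure_lt_top.ne, lintegral_seg r hr,
          ENNReal.ofReal_mul hm, mul_assoc]
    _ ≤ ENNReal.ofReal m * ∫⁻ t in Ioc (0 : ℝ) 1, ν (Lev T (m * t)) := by
        gcongr 1
        exact setLIntegral_mono' measurableSet_Ioc hstep
    _ ≤ (ν.prod volume) T := normalized_volume_le ν hT hTc hm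

end Vale.Agent.H9.SymCyl
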