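import Mathlib

/-!
# The segment-sum property

`HasSeg ν`: for a compact convex centrally symmetric set `P` and a vector `x` such that
`σ • x ∈ P` implies `|σ| * r ≤ 1` (so `r` is at most the gauge of `P` at `x`), every measurable
set containing `(1 - t) • P + [-t, t] • x` has measure at least
`((1 - t) ^ 2 + t * (1 - t) * r) * ν P`.  Lebesgue measure on a two-dimensional space has this
property (see `Planar.lean`).
-/

open MeasureTheory Set
open scoped Pointwise ENNReal

namespace Vale.Agent.H9.SymCyl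

variable {X : Type*} [NormedAddCommGroup X] [NormedSpace ℝ X] [MeasurableSpace X]

/-- Segment-sum property of a measure on a two-dimensional base space. -/
def HasSeg (ν : Measure X) : Prop :=
  ∀ (P Q : Set X) (x : X) (r t : ℝ), IsCompact P → Convex ℝ P → (∀ p ∈ P, -p ∈ P) → 0 ≤ r →
    (∀ σ : ℝ, σ • x ∈ P → |σ| * r ≤ 1) → 0 ≤ t → t ≤ 1 → MeasurableSet Q →
    (∀ p ∈ P, ∀ c : ℝ, |c| ≤ t → (1 - t) • p + c • x ∈ Q) →
    ENNReal.ofReal ((1 - t) ^ 2 + t * (1 - t) * r) * ν P ≤ ν Q

end Vale.Agent.H9.SymCyl
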