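import Mathlib

/-!
# Shadows and shells of convex bodies in a Euclidean space

Sketch. `shadow_pos`: the orthogonal projection onto a subspace is a surjective continuous
linear map, hence an open map; the image of the interior of `K` is a nonempty open set.
`shell_volume`: if `K` is empty both sides vanish; otherwise `0 ∈ K`, so `lam • K ⊆ K`,
`vol (lam • K) = lam ^ 3 vol K` (`Measure.addHaar_smul`), and `measure_diff`.
-/

open MeasureTheory Set Module
open scoped Pointwise ENNReal

set_option linter.unusedSectionVars false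

namespace Vale.Agent.H9.SymCyl

variable {E : Type*} [NormedAddCommGroup E] [InnerProductSpace ℝ E] [FiniteDimensional ℝ E]
  [MeasurableSpace E] [BorelSpace E]

/-- The shadow of a set with nonempty interior has positive area. -/
theorem shadow_pos (u : E) {K : Set E} (hKi : (interior K).Nonempty) :
    volume ((Submodule.span ℝ {u})ᗮ.orthogonalProjectionOnto '' K) ≠ 0 := by
  have hsurj : Function.Surjective (Submodule.span ℝ {u})ᗮ.orthogonalProjectionOnto := fun v =>
    ⟨v, Submodule.orthogonalProjectionOnto_mem_subspace_eq_self v⟩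
  have hopen : IsOpenMap (Submodule.span ℝ {u})ᗮ.orthogonalProjectionOnto :=
    ((Submodule.span ℝ {u})ᗮ.orthogonalProjectionOnto).isOpenMap hsurj
  have ho : IsOpen ((Submodule.span ℝ {u})ᗮ.orthogonalProjectionOnto '' interior K) :=
    hopen _ isOpen_interior
  have hne : ((Submodule.span ℝ {u})ᗮ.orthogonalProjectionOnto '' interior K).Nonempty :=
    hKi.image _
  have hpos : 0 < volume ((Submodule.span ℝ {u})ᗮ.orthogonalProjectionOnto '' interior K) :=
    ho.measure_pos volume hne
  have hsub : (Submodule.span ℝ {u})ᗮ.orthogonalProjectionOnto '' interior K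
      ⊆ (Submodule.span ℝ {u})ᗮ.orthogonalProjectionOnto '' K := Set.image_mono interior_subset
  exact (hpos.trans_le (measure_mono hsub)).ne'

/-- Volume of the shell `K \ lam • K` of a symmetric convex body. -/
theorem shell_volume (hE : finrank ℝ E = 3) {K : Set E} (hK : IsCompact K) (hKc : Convex ℝ K)
    (hKs : ∀ x ∈ K, -x ∈ K) {lam : ℝ} (h0 : 0 < lam) (h1 : lam < 1) :
    volume (K \ lam • K) = ENNReal.ofReal (1 - lam ^ 3) * volume K := by
  rcases K.eq_empty_or_nonempty with rfl | ⟨x, hx⟩
  · simp
  have hzero : (0 : E) ∈ K := by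
    have h := hKc hx (hKs x hx) (by norm_num : (0 : ℝ) ≤ 1 / 2) (by norm_num : (0 : ℝ) ≤ 1 / 2)
      (by norm_num)
    simpa using h
  have hsub : lam • K ⊆ K := by
    rintro _ ⟨y, hy, rfl⟩
    have h := hKc hy hzero h0.le (sub_nonneg.2 h1.le) (by ring)
    simpa using h
  have hmeas : MeasurableSet (lam • K) := (hK.smul lam).measurableSet
  have hfin : volume (lam • K) ≠ ∞ := (hK.smul lam).measure_lt_top.ne
  have hKfin : volume K ≠ ∞ := hK.measure_lt_top.ne
  have hvol : volume (lam • K) = ENNReal.ofReal (lam ^ 3) * volume K := by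
    rw [Measure.addHaar_smul, hE, abs_of_pos (pow_pos h0 3)]
  have h3 : lam ^ 3 ≤ 1 := pow_le_one₀ h0.le h1.le
  rw [measure_sdiff hsub hmeas.nullMeasurableSet hfin, hvol,
    ENNReal.ofReal_sub _ (pow_nonneg h0.le 3), ENNReal.ofReal_one,
    ENNReal.sub_mul (fun _ _ => hKfin), one_mul]

end Vale.Agent.H9.SymCyl
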