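import Vale.Agent.H9.SymCyl.Defs

/-!
# Transport of the segment-sum property along a measure preserving linear equivalence

Sketch. As `Vale.Agent.H76.HasBM2.of_equiv`: `μ S = ν (e '' S)` for measurable `S` (`e` is a
homeomorphism, hence a measurable equivalence), and the hypotheses of `HasSeg` for
`e '' P`, `e '' Q`, `e x` follow from those for `P`, `Q`, `x` by linearity of `e`.
-/

open MeasureTheory Set
open scoped Pointwise ENNReal

namespace Vale.Agent.H9.SymCyl

variable {X : Type*} [NormedAddCommGroup X] [NormedSpace ℝ X] [MeasurableSpace X]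

theorem HasSeg.of_equiv {Y : Type*} [NormedAddCommGroup Y] [NormedSpace ℝ Y] [MeasurableSpace Y]
    [BorelSpace X] [BorelSpace Y] {μ : Measure X} {ν : Measure Y} (e : X ≃L[ℝ] Y)
    (he : MeasurePreserving e μ ν) (h : HasSeg ν) : HasSeg μ := by
  intro P Q x r t hP hPc hPs hr hgauge ht0 ht1 hQ hsub
  have hPm : MeasurableSet (e '' P) := (hP.image e.continuous).isClosed.measurableSet
  have hmP : μ P = ν (e '' P) := by
    rw [← he.measure_preimage hPm.nullMeasurableSet, e.injective.preimage_image]
  have hQm : MeasurableSet (e '' Q) :=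
    e.toHomeomorph.measurableEmbedding.measurableSet_image.mpr hQ
  have hmQ : μ Q = ν (e '' Q) := by
    rw [← he.measure_preimage hQm.nullMeasurableSet, e.injective.preimage_image]
  rw [hmP, hmQ]
  refine h (e '' P) (e '' Q) (e x) r t (hP.image e.continuous) (hPc.is_linear_image e.isLinear)
    ?_ hr ?_ ht0 ht1 hQm ?_
  · rintro _ ⟨p, hp, rfl⟩
    exact ⟨-p, hPs p hp, by simp⟩
  · intro σ hσ
    apply hgauge σ
    obtain ⟨p, hp, hpe⟩ := hσ
    have hpx : p = σ • x := e.injective (by rw [hpe]; simp)
    rw [← hpx]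
    exact hp
  · rintro _ ⟨p, hp, rfl⟩ c hc
    exact ⟨(1 - t) • p + c • x, hsub p hp c hc, by simp⟩

end Vale.Agent.H9.SymCyl
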