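import Vale.Agent.H9.SymCyl.PlaneC
import Vale.Agent.H9.SymCyl.PlaneD

/-!
# Lebesgue measure on a two-dimensional inner product space has the segment-sum property
-/

open MeasureTheory Set Module
open scoped Pointwise ENNReal

namespace Vale.Agent.H9.SymCyl

theorem hasSeg_of_finrank_two {V : Type*} [NormedAddCommGroup V] [InnerProductSpace ℝ V]
    [FiniteDimensional ℝ V] [MeasurableSpace V] [BorelSpace V] (hV : finrank ℝ V = 2) :
    HasSeg (volume : Measure V) := by
  let b : OrthonormalBasis (Fin 2) ℝ V := (stdOrthonormalBasis ℝ V).reindex (finCongr hV)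
  let e : V ≃L[ℝ] ℝ × ℝ :=
    (b.repr.toContinuousLinearEquiv.trans (EuclideanSpace.equiv (Fin 2) ℝ)).trans
      (ContinuousLinearEquiv.finTwoArrow ℝ ℝ)
  have he : MeasurePreserving e volume volume := by
    have h1 := b.measurePreserving_repr
    have h2 := PiLp.volume_preserving_ofLp (Fin 2)
    have h3 := volume_preserving_finTwoArrow ℝ
    exact h3.comp (h2.comp h1)
  exact HasSeg.of_equiv e he hasSeg_plane

end Vale.Agent.H9.SymCyl
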