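import Vale.Agent.H9.SymCyl.ShellN
import Vale.Agent.H9.SymCyl.Planar
import Vale.Agent.H76.Transfer

/-!
# Averaged shells of a symmetric convex body inside a cylinder

Sketch. Exactly as `Vale.Agent.H76.cylinder_bound`: `Ψ = splitEquiv u hu` is a measure
preserving continuous linear equivalence `E ≃ u^⊥ × ℝ` with first component the orthogonal
projection; `T = Ψ '' K` is compact, convex and centrally symmetric, `Ψ '' (c • K) = c • T`,
`fst '' T` is the shadow of `K`, and `shellN_bound` applies with `ν = volume` on `u^⊥`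
(`hasSeg_of_finrank_two`, the subspace has dimension two).
-/

open MeasureTheory Set Module
open scoped Pointwise ENNReal

set_option linter.unusedSectionVars false

namespace Vale.Agent.H9.SymCyl

open Vale.Agent.H76

variable {E : Type*} [NormedAddCommGroup E] [InnerProductSpace ℝ E] [FiniteDimensional ℝ E]
  [MeasurableSpace E] [BorelSpace E]

theorem shellN_cylinder_bound (hE : finrank ℝ E = 3) (u : E) (hu : ‖u‖ = 1) {K : Set E}
    (hK : IsCompact K) (hKc : Convex ℝ K) (hKs : ∀ x ∈ K, -x ∈ K) (N : ℕ) (hN : 0 < N)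
    (hP0 : volume ((Submodule.span ℝ {u})ᗮ.orthogonalProjectionOnto '' K) ≠ 0)
    {B : Set ↥(Submodule.span ℝ {u})ᗮ} (hB : MeasurableSet B) :
    ENNReal.ofReal (1 / 2 + 1 / (N : ℝ)) *
          volume (K ∩ (Submodule.span ℝ {u})ᗮ.orthogonalProjectionOnto ⁻¹' B) +
        ENNReal.ofReal (1 / (N : ℝ)) * ∑ j ∈ Finset.Ico 1 N,
          volume ((K \ ((j : ℝ) / N) • K) ∩
            (Submodule.span ℝ {u})ᗮ.orthogonalProjectionOnto ⁻¹' B) ≤
      ENNReal.ofReal (3 + 3 / (N : ℝ)) * volume K /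
          volume ((Submodule.span ℝ {u})ᗮ.orthogonalProjectionOnto '' K) *
        volume (B ∩ (Submodule.span ℝ {u})ᗮ.orthogonalProjectionOnto '' K) := by
  have hu0 : u ≠ 0 := by
    rintro rfl
    simp at hu
  have : Fact (finrank ℝ E = 2 + 1) := ⟨hE⟩
  have hH : finrank ℝ ↥(Submodule.span ℝ {u})ᗮ = 2 := Submodule.finrank_orthogonal_span_singleton hu0
  have hSeg := hasSeg_of_finrank_two hH
  set Ψ := splitEquiv u hu with hΨ
  set T : Set (↥(Submodule.span ℝ {u})ᗮ × ℝ) := Ψ '' K with hTdef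
  have hT : IsCompact T := hK.image Ψ.continuous
  have hTc : Convex ℝ T := hKc.is_linear_image Ψ.isLinear
  have hTs : ∀ p ∈ T, -p ∈ T := by
    rintro _ ⟨x, hx, rfl⟩
    exact ⟨-x, hKs x hx, map_neg Ψ x⟩
  have hfst : Prod.fst '' T = (Submodule.span ℝ {u})ᗮ.orthogonalProjectionOnto '' K := by
    ext y
    constructor
    · rintro ⟨_, ⟨x, hx, rfl⟩, rfl⟩
      exact ⟨x, hx, (splitEquiv_fst u hu x).symm⟩
    · rintro ⟨x, hx, rfl⟩
      exact ⟨Ψ x, ⟨x, hx, rfl⟩, splitEquiv_fst u hu x⟩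
  have hmp := splitEquiv_measurePreserving u hu
  have h1 : (volume.prod volume) T = volume K := by
    rw [← hmp.measure_preimage hT.isClosed.measurableSet.nullMeasurableSet,
      Ψ.injective.preimage_image]
  have hpreB : ∀ x : E, Ψ x ∈ B ×ˢ (univ : Set ℝ) ↔
      x ∈ (Submodule.span ℝ {u})ᗮ.orthogonalProjectionOnto ⁻¹' B := by
    intro x
    constructor
    · intro hx
      have : (Ψ x).1 ∈ B := hx.1
      rw [splitEquiv_fst] at this
      exact this
    · intro hx
      refine ⟨?_, mem_univ _⟩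
      show (Ψ x).1 ∈ B
      rw [splitEquiv_fst]
      exact hx
  have h2 : (volume.prod volume) (T ∩ B ×ˢ univ) =
      volume (K ∩ (Submodule.span ℝ {u})ᗮ.orthogonalProjectionOnto ⁻¹' B) := by
    rw [← hmp.measure_preimage
      (hT.isClosed.measurableSet.inter (hB.prod MeasurableSet.univ)).nullMeasurableSet]
    congr 1
    ext x
    constructor
    · rintro ⟨⟨y, hy, hxy⟩, hxB⟩
      have hyx : y = x := Ψ.injective hxy
      subst hyx
      exact ⟨hy, (hpreB y).1 hxB⟩
    · rintro ⟨hxK, hxB⟩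
      exact ⟨⟨x, hxK, rfl⟩, (hpreB x).2 hxB⟩
  have hsm : ∀ c : ℝ, ∀ x : E, Ψ x ∈ c • T ↔ x ∈ c • K := by
    intro c x
    constructor
    · rintro ⟨_, ⟨y, hy, rfl⟩, hxy⟩
      have hxy' : Ψ (c • y) = Ψ x := by
        rw [map_smul]
        exact hxy
      have hyx : c • y = x := Ψ.injective hxy'
      exact ⟨y, hy, hyx⟩
    · rintro ⟨y, hy, rfl⟩
      exact ⟨Ψ y, ⟨y, hy, rfl⟩, (map_smul Ψ c y).symm⟩
  have h3 : ∀ c : ℝ, (volume.prod volume) ((T \ c • T) ∩ B ×ˢ univ) =
      volume ((K \ c • K) ∩ (Submodule.span ℝ {u})ᗮ.orthogonalProjectionOnto ⁻¹' B) := by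
    intro c
    have hcT : IsCompact (c • T) := hT.smul c
    rw [← hmp.measure_preimage
      ((hT.isClosed.measurableSet.diff hcT.isClosed.measurableSet).inter
        (hB.prod MeasurableSet.univ)).nullMeasurableSet]
    congr 1
    ext x
    constructor
    · rintro ⟨⟨⟨y, hy, hxy⟩, hxn⟩, hxB⟩
      have hyx : y = x := Ψ.injective hxy
      subst hyx
      exact ⟨⟨hy, fun hc => hxn ((hsm c y).2 hc)⟩, (hpreB y).1 hxB⟩
    · rintro ⟨⟨hxK, hxn⟩, hxB⟩
      exact ⟨⟨⟨x, hxK, rfl⟩, fun hc => hxn ((hsm c x).1 hc)⟩, (hpreB x).2 hxB⟩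
  have hP0' : (volume : Measure ↥(Submodule.span ℝ {u})ᗮ) (Prod.fst '' T) ≠ 0 := by
    rw [hfst]
    exact hP0
  have h := shellN_bound volume hSeg hT hTc hTs N hN hP0' hB
  rw [hfst, h1, h2] at h
  simp only [h3] at h
  exact h

end Vale.Agent.H9.SymCyl
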