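import Vale.Agent.H9.SymCyl.EuA
import Vale.Agent.H9.SymCyl.EuB

/-!
# Covering a symmetric convex body by finitely many cylinders

Sketch (compare `Vale.Agent.H76.covering_sum`). Replace each base `B i` by a measurable hull
`B' i = toMeasurable volume (B i)`.  The cylinders cover `K` and every shell `K \ c • K`, so
`vol K ≤ ∑ i, vol (K ∩ cyl i)` and `vol (K \ c • K) ≤ ∑ i, vol ((K \ c • K) ∩ cyl i)`.  Multiply
the first by `1/2 + 1/N`, the others (`c = j/N`, `1 ≤ j < N`) by `1/N`, add, and use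
`shell_volume`, `mass_sum_ge` on the left (`≥ (5/4) vol K`) and `shellN_cylinder_bound` on the
right (`≤ (3 + 3/N) vol K ∑ i, vol (B' i ∩ P i) / vol (P i)`, `P i` the shadow, of positive
area by `shadow_pos`).  Divide by `vol K`, which is positive and finite.
-/

open MeasureTheory Set Module
open scoped Pointwise ENNReal

set_option linter.unusedSectionVars false

namespace Vale.Agent.H9.SymCyl

open Vale.Agent.H76

variable {E : Type*} [NormedAddCommGroup E] [InnerProductSpace ℝ E] [FiniteDimensional ℝ E]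
  [MeasurableSpace E] [BorelSpace E]

theorem symN_covering_sum {ι : Type*} [Fintype ι] (hE : finrank ℝ E = 3) {K : Set E}
    (hK : IsCompact K) (hKc : Convex ℝ K) (hKi : (interior K).Nonempty)
    (hKs : ∀ x ∈ K, -x ∈ K)
    (u : ι → E) (hu : ∀ i, ‖u i‖ = 1) (B : ∀ i, Set ↥(Submodule.span ℝ {u i})ᗮ)
    (hcov : K ⊆ ⋃ i, (Submodule.span ℝ {u i})ᗮ.orthogonalProjectionOnto ⁻¹' B i)
    (N : ℕ) (hN : 0 < N) :
    ENNReal.ofReal (5 / 4) ≤ ENNReal.ofReal (3 + 3 / (N : ℝ)) *
      ∑ i, volume (B i) / volume ((Submodule.span ℝ {u i})ᗮ.orthogonalProjectionOnto '' K) := by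
  set B' : ∀ i, Set ↥(Submodule.span ℝ {u i})ᗮ := fun i => toMeasurable volume (B i) with hB'
  have hB'm : ∀ i, MeasurableSet (B' i) := fun i => measurableSet_toMeasurable _ _
  have hB'v : ∀ i, volume (B' i) = volume (B i) := fun i => measure_toMeasurable _
  have hBB' : ∀ i, B i ⊆ B' i := fun i => subset_toMeasurable _ _
  set P : ∀ i, Set ↥(Submodule.span ℝ {u i})ᗮ :=
    fun i => (Submodule.span ℝ {u i})ᗮ.orthogonalProjectionOnto '' K with hP
  have hP0 : ∀ i, volume (P i) ≠ 0 := fun i => shadow_pos (u i) hKi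
  have hKpos : 0 < volume K :=
    lt_of_lt_of_le (isOpen_interior.measure_pos volume hKi) (measure_mono interior_subset)
  have hKfin : volume K ≠ ⊤ := hK.measure_lt_top.ne
  have hNr : (0 : ℝ) < (N : ℝ) := by exact_mod_cast hN
  -- union bound for subsets of `K`
  have hun : ∀ S : Set E, S ⊆ K → volume S ≤ ∑ i, volume
      (S ∩ (Submodule.span ℝ {u i})ᗮ.orthogonalProjectionOnto ⁻¹' B' i) := by
    intro S hS
    have hsub : S ⊆ ⋃ i, S ∩ (Submodule.span ℝ {u i})ᗮ.orthogonalProjectionOnto ⁻¹' B' i := by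
      intro x hx
      obtain ⟨i, hi⟩ := mem_iUnion.1 (hcov (hS hx))
      exact mem_iUnion.2 ⟨i, hx, hBB' i hi⟩
    exact (measure_mono hsub).trans (measure_iUnion_fintype_le _ _)
  -- the left side
  have hshell : ∀ j ∈ Finset.Ico 1 N, volume (K \ ((j : ℝ) / N) • K)
      = ENNReal.ofReal (1 - ((j : ℝ) / N) ^ 3) * volume K := by
    intro j hj
    have hj1 : 1 ≤ j := (Finset.mem_Ico.1 hj).1
    have hj2 : j < N := (Finset.mem_Ico.1 hj).2
    have hjr : (0 : ℝ) < (j : ℝ) := by exact_mod_cast hj1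
    have hjN : (j : ℝ) < (N : ℝ) := by exact_mod_cast hj2
    exact shell_volume hE hK hKc hKs (div_pos hjr hNr) ((div_lt_one hNr).2 hjN)
  have hterm : ∀ j ∈ Finset.Ico 1 N, (0 : ℝ) ≤ 1 - ((j : ℝ) / N) ^ 3 := by
    intro j hj
    have hj2 : j < N := (Finset.mem_Ico.1 hj).2
    have hjN : (j : ℝ) < (N : ℝ) := by exact_mod_cast hj2
    have h0 : (0 : ℝ) ≤ (j : ℝ) / N := div_nonneg (Nat.cast_nonneg j) hNr.le
    have h1 : (j : ℝ) / N ≤ 1 := ((div_lt_one hNr).2 hjN).le
    have := pow_le_one₀ h0 h1 (n := 3)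
    linarith
  have hS0 : (0 : ℝ) ≤ ∑ j ∈ Finset.Ico 1 N, (1 - ((j : ℝ) / N) ^ 3) :=
    Finset.sum_nonneg hterm
  have hleft : ENNReal.ofReal (5 / 4) * volume K ≤
      ENNReal.ofReal (1 / 2 + 1 / (N : ℝ)) * volume K +
        ENNReal.ofReal (1 / (N : ℝ)) * ∑ j ∈ Finset.Ico 1 N,
          volume (K \ ((j : ℝ) / N) • K) := by
    rw [Finset.sum_congr rfl hshell, ← Finset.sum_mul, ← ENNReal.ofReal_sum_of_nonneg hterm,
      ← mul_assoc, ← ENNReal.ofReal_mul (by positivity), ← add_mul,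
      ← ENNReal.ofReal_add (by positivity) (mul_nonneg (by positivity) hS0)]
    gcongr
    exact mass_sum_ge N hN
  -- the union bounds
  have hmid : ENNReal.ofReal (1 / 2 + 1 / (N : ℝ)) * volume K +
        ENNReal.ofReal (1 / (N : ℝ)) * ∑ j ∈ Finset.Ico 1 N,
          volume (K \ ((j : ℝ) / N) • K) ≤
      ∑ i, (ENNReal.ofReal (1 / 2 + 1 / (N : ℝ)) *
          volume (K ∩ (Submodule.span ℝ {u i})ᗮ.orthogonalProjectionOnto ⁻¹' B' i) +
        ENNReal.ofReal (1 / (N : ℝ)) * ∑ j ∈ Finset.Ico 1 N,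
          volume ((K \ ((j : ℝ) / N) • K) ∩
            (Submodule.span ℝ {u i})ᗮ.orthogonalProjectionOnto ⁻¹' B' i)) := by
    rw [Finset.sum_add_distrib, ← Finset.mul_sum, ← Finset.mul_sum, Finset.sum_comm]
    have hA := hun K subset_rfl
    have hB : ∑ j ∈ Finset.Ico 1 N, volume (K \ ((j : ℝ) / N) • K) ≤
        ∑ j ∈ Finset.Ico 1 N, ∑ i, volume ((K \ ((j : ℝ) / N) • K) ∩
            (Submodule.span ℝ {u i})ᗮ.orthogonalProjectionOnto ⁻¹' B' i) :=
      Finset.sum_le_sum fun j _ => hun _ sdiff_subset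
    gcongr
  -- the cylinder bounds
  have hright : ∀ i, ENNReal.ofReal (1 / 2 + 1 / (N : ℝ)) *
          volume (K ∩ (Submodule.span ℝ {u i})ᗮ.orthogonalProjectionOnto ⁻¹' B' i) +
        ENNReal.ofReal (1 / (N : ℝ)) * ∑ j ∈ Finset.Ico 1 N,
          volume ((K \ ((j : ℝ) / N) • K) ∩
            (Submodule.span ℝ {u i})ᗮ.orthogonalProjectionOnto ⁻¹' B' i) ≤
      volume K * (ENNReal.ofReal (3 + 3 / (N : ℝ)) * (volume (B i) / volume (P i))) := by
    intro i
    have h := shellN_cylinder_bound hE (u i) (hu i) hK hKc hKs N hN (hP0 i) (hB'm i)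
    refine h.trans ?_
    have hle : volume (B' i ∩ P i) ≤ volume (B i) := by
      rw [← hB'v i]
      exact measure_mono inter_subset_left
    calc ENNReal.ofReal (3 + 3 / (N : ℝ)) * volume K / volume (P i) * volume (B' i ∩ P i)
        ≤ ENNReal.ofReal (3 + 3 / (N : ℝ)) * volume K / volume (P i) * volume (B i) :=
          by gcongr
      _ = volume K * (ENNReal.ofReal (3 + 3 / (N : ℝ)) * (volume (B i) / volume (P i))) := by
          simp only [div_eq_mul_inv]
          ring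
  have htot : ENNReal.ofReal (5 / 4) * volume K ≤
      (ENNReal.ofReal (3 + 3 / (N : ℝ)) * ∑ i, volume (B i) / volume (P i)) * volume K := by
    refine hleft.trans (hmid.trans ((Finset.sum_le_sum fun i _ => hright i).trans ?_))
    rw [← Finset.mul_sum, ← Finset.mul_sum, mul_comm]
  by_contra hcon
  push Not at hcon
  have h4 := ENNReal.mul_lt_mul_left hKpos.ne' hKfin hcon
  exact absurd htot (not_le.2 h4)

end Vale.Agent.H9.SymCyl
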