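import Mathlib

/-!
# Passing to the limit in the number of shells

If `5/4 ≤ (3 + 3/N) S` for every `N ≥ 1` then `5/12 ≤ S`.
Sketch: if `S = ⊤` this is clear; otherwise with `σ = S.toReal` the hypothesis reads
`5/4 ≤ (3 + 3/N) σ` for all `N ≥ 1`, and `σ < 5/12` is impossible for large `N`
(`N > 3 σ / (5/4 - 3 σ)`).
-/

open scoped ENNReal

namespace Vale.Agent.H9.SymCyl

theorem five_twelfths_of_forall {S : ℝ≥0∞}
    (h : ∀ N : ℕ, 0 < N → ENNReal.ofReal (5 / 4) ≤ ENNReal.ofReal (3 + 3 / (N : ℝ)) * S) :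
    (5 / 12 : ℝ≥0∞) ≤ S := by
  by_cases hS : S = ⊤
  · rw [hS]
    exact le_top
  have hσ : S = ENNReal.ofReal S.toReal := (ENNReal.ofReal_toReal hS).symm
  have hσ0 : 0 ≤ S.toReal := ENNReal.toReal_nonneg
  have hreal : ∀ N : ℕ, 0 < N → 5 / 4 ≤ (3 + 3 / (N : ℝ)) * S.toReal := by
    intro N hN
    have h1 := h N hN
    rw [hσ, ← ENNReal.ofReal_mul (by positivity)] at h1
    have hnn : 0 ≤ (3 + 3 / (N : ℝ)) * S.toReal := by positivity
    exact (ENNReal.ofReal_le_ofReal_iff hnn).1 h1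
  have hge : 5 / 12 ≤ S.toReal := by
    by_contra hcon
    have hlt : S.toReal < 5 / 12 := not_le.1 hcon
    have hgap : 0 < 5 / 4 - 3 * S.toReal := by linarith
    obtain ⟨N, hN⟩ := exists_nat_gt (3 * S.toReal / (5 / 4 - 3 * S.toReal) + 1)
    have hq : 0 ≤ 3 * S.toReal / (5 / 4 - 3 * S.toReal) := by positivity
    have hNpos : (0 : ℝ) < N := by linarith
    have hN' : 0 < N := by exact_mod_cast hNpos
    have h2 := hreal N hN'
    have h3 : 3 * S.toReal / (5 / 4 - 3 * S.toReal) < N := by linarith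
    rw [div_lt_iff₀ hgap] at h3
    have h4 : (3 + 3 / (N : ℝ)) * S.toReal = 3 * S.toReal + 3 * S.toReal / N := by
      field_simp
    have h5 : 3 * S.toReal / N < 5 / 4 - 3 * S.toReal := by
      rw [div_lt_iff₀ hNpos]
      linarith
    linarith
  rw [hσ]
  have h512 : (5 / 12 : ℝ≥0∞) = ENNReal.ofReal (5 / 12) := by
    rw [ENNReal.ofReal_div_of_pos (by norm_num)]
    simp
  rw [h512]
  exact ENNReal.ofReal_le_ofReal hge

end Vale.Agent.H9.SymCyl
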