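import Vale.Agent.H9.SymCyl.EuC
import Vale.Agent.H9.SymCyl.Limit
import Vale.Agent.H76.Many

/-!
# Cylinder coverings of convex bodies symmetric about the origin, in Euclidean 3-space
-/

open MeasureTheory Set Module
open scoped Pointwise ENNReal

namespace Vale.Agent.H9.SymCyl

open Vale.Agent.H76

/-- Cylinder coverings of a convex body symmetric about the origin: the relative base areas sum
to at least `5/12`. -/
theorem sym_cylinders_origin (m : ℕ)
    (K : Set (EuclideanSpace ℝ (Fin 3))) (hKconv : Convex ℝ K) (hKcomp : IsCompact K)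
    (hKint : (interior K).Nonempty) (hKsym : ∀ x ∈ K, -x ∈ K)
    (u : Fin m → EuclideanSpace ℝ (Fin 3)) (hu : ∀ i, ‖u i‖ = 1)
    (B : Fin m → Set (EuclideanSpace ℝ (Fin 3)))
    (hB : ∀ i, ∀ x ∈ B i, inner ℝ x (u i) = 0)
    (hcov : K ⊆ ⋃ i, {x | ∃ b ∈ B i, ∃ t : ℝ, x = b + t • u i}) :
    (5 / 12 : ℝ≥0∞) ≤
      ∑ i, μHE[2] (B i) / μHE[2] ((fun x => x - inner ℝ x (u i) • u i) '' K) := by
  have hE : finrank ℝ (EuclideanSpace ℝ (Fin 3)) = 3 := by simp
  have hcov' : K ⊆ ⋃ i, (Submodule.span ℝ {u i})ᗮ.orthogonalProjectionOnto ⁻¹'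
      (Subtype.val ⁻¹' B i : Set ↥(Submodule.span ℝ {u i})ᗮ) := by
    intro x hx
    obtain ⟨i, hi⟩ := mem_iUnion.1 (hcov hx)
    exact mem_iUnion.2 ⟨i, proj_mem_of_cyl (u i) (hu i) (B i) (hB i) x hi⟩
  have key : (5 / 12 : ℝ≥0∞) ≤ ∑ i, volume (Subtype.val ⁻¹' B i : Set ↥(Submodule.span ℝ {u i})ᗮ) /
      volume ((Submodule.span ℝ {u i})ᗮ.orthogonalProjectionOnto '' K) :=
    five_twelfths_of_forall fun N hN => symN_covering_sum hE hKcomp hKconv hKint hKsym u hu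
      (fun i => (Subtype.val ⁻¹' B i : Set ↥(Submodule.span ℝ {u i})ᗮ)) hcov' N hN
  refine key.trans (le_of_eq ?_)
  apply Finset.sum_congr rfl
  intro i _
  rw [hausdorff_base hE (u i) (hu i) (B i) (hB i), hausdorff_shadow hE (u i) (hu i) K]

end Vale.Agent.H9.SymCyl
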