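import Vale.Agent.H9.SymCyl.EuD

/-!
# Cylinder coverings of centrally symmetric convex bodies (any centre)

Sketch. Apply `sym_cylinders_origin` to `K' = (fun x => x - c) '' K` (compact, convex, nonempty
interior, symmetric about the origin because `-(x - c) = (2 • c - x) - c`) and to the bases
`B' i = (fun b => b - (c - inner ℝ c (u i) • u i)) '' B i` (still orthogonal to `u i`; if
`x = b + t • u i` then `x - c = (b - (c - ⟪c, u i⟫ • u i)) + (t - ⟪c, u i⟫) • u i`).  The
Hausdorff measure is invariant under translations (`Isometry.euclideanHausdorffMeasure_image`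
for the isometry `fun b => b - v`), so `μHE[2] (B' i) = μHE[2] (B i)`, and the shadow of `K'` is
the translate by `-(c - ⟪c, u i⟫ • u i)` of the shadow of `K`.
-/

open MeasureTheory Set Module
open scoped Pointwise ENNReal

namespace Vale.Agent.H9.SymCyl

open Vale.Agent.H76

/-- **Cylinder coverings of a centrally symmetric convex body** (centre `c`): the relative base
areas sum to at least `5/12`. -/
theorem sym_cylinders (m : ℕ)
    (K : Set (EuclideanSpace ℝ (Fin 3))) (hKconv : Convex ℝ K) (hKcomp : IsCompact K)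
    (hKint : (interior K).Nonempty)
    (c : EuclideanSpace ℝ (Fin 3)) (hKsym : ∀ x ∈ K, (2 : ℝ) • c - x ∈ K)
    (u : Fin m → EuclideanSpace ℝ (Fin 3)) (hu : ∀ i, ‖u i‖ = 1)
    (B : Fin m → Set (EuclideanSpace ℝ (Fin 3)))
    (hB : ∀ i, ∀ x ∈ B i, inner ℝ x (u i) = 0)
    (hcov : K ⊆ ⋃ i, {x | ∃ b ∈ B i, ∃ t : ℝ, x = b + t • u i}) :
    (5 / 12 : ℝ≥0∞) ≤
      ∑ i, μHE[2] (B i) / μHE[2] ((fun x => x - inner ℝ x (u i) • u i) '' K) := by
  have huu : ∀ i, inner ℝ (u i) (u i) = (1 : ℝ) := fun i => by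
    rw [real_inner_self_eq_norm_sq, hu i]
    norm_num
  have hiso : ∀ w : EuclideanSpace ℝ (Fin 3),
      Isometry (fun b : EuclideanSpace ℝ (Fin 3) => b - w) := fun w =>
    Isometry.of_dist_eq (fun x y => dist_sub_right x y w)
  have hfun : (fun x : EuclideanSpace ℝ (Fin 3) => x - c) = (fun z => -c + z) := by
    funext z
    abel
  have hconv' : Convex ℝ ((fun x : EuclideanSpace ℝ (Fin 3) => x - c) '' K) := by
    rw [hfun]
    exact hKconv.translate (-c)
  have hcomp' : IsCompact ((fun x : EuclideanSpace ℝ (Fin 3) => x - c) '' K) :=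
    hKcomp.image (continuous_id.sub continuous_const)
  have hint' : (interior ((fun x : EuclideanSpace ℝ (Fin 3) => x - c) '' K)).Nonempty := by
    obtain ⟨x, hx⟩ := hKint
    refine ⟨x - c, ?_⟩
    have h1 := (Homeomorph.subRight c).image_interior K
    have h2 : x - c ∈ (Homeomorph.subRight c) '' interior K := ⟨x, hx, rfl⟩
    rw [h1] at h2
    exact h2
  have hsym' : ∀ x ∈ (fun x : EuclideanSpace ℝ (Fin 3) => x - c) '' K,
      -x ∈ (fun x : EuclideanSpace ℝ (Fin 3) => x - c) '' K := by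
    rintro x ⟨y, hy, rfl⟩
    refine ⟨(2 : ℝ) • c - y, hKsym y hy, ?_⟩
    simp only [two_smul]
    abel
  have hB' : ∀ i, ∀ x ∈ (fun b : EuclideanSpace ℝ (Fin 3) => b - (c - inner ℝ c (u i) • u i)) '' B i,
      inner ℝ x (u i) = 0 := by
    rintro i x ⟨b, hb, rfl⟩
    simp only [inner_sub_left, inner_smul_left, hB i b hb, huu i]
    simp
  have hcov' : (fun x : EuclideanSpace ℝ (Fin 3) => x - c) '' K ⊆
      ⋃ i, {x | ∃ b ∈ (fun b : EuclideanSpace ℝ (Fin 3) => b - (c - inner ℝ c (u i) • u i)) '' B i,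
        ∃ t : ℝ, x = b + t • u i} := by
    rintro x ⟨y, hy, rfl⟩
    obtain ⟨i, b, hb, t, rfl⟩ := mem_iUnion.1 (hcov hy)
    refine mem_iUnion.2 ⟨i, b - (c - inner ℝ c (u i) • u i), ⟨b, hb, rfl⟩,
      t - inner ℝ c (u i), ?_⟩
    simp only [sub_smul]
    abel
  have key := sym_cylinders_origin m ((fun x : EuclideanSpace ℝ (Fin 3) => x - c) '' K) hconv'
    hcomp' hint' hsym' u hu
    (fun i => (fun b : EuclideanSpace ℝ (Fin 3) => b - (c - inner ℝ c (u i) • u i)) '' B i)
    hB' hcov'
  refine key.trans (le_of_eq ?_)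
  apply Finset.sum_congr rfl
  intro i _
  have h1 : μHE[2] ((fun b : EuclideanSpace ℝ (Fin 3) => b - (c - inner ℝ c (u i) • u i)) '' B i)
      = μHE[2] (B i) := (hiso _).euclideanHausdorffMeasure_image _
  have h2 : (fun x : EuclideanSpace ℝ (Fin 3) => x - inner ℝ x (u i) • u i) ''
        ((fun x : EuclideanSpace ℝ (Fin 3) => x - c) '' K)
      = (fun z : EuclideanSpace ℝ (Fin 3) => z - (c - inner ℝ c (u i) • u i)) ''
        ((fun x : EuclideanSpace ℝ (Fin 3) => x - inner ℝ x (u i) • u i) '' K) := by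
    rw [Set.image_image, Set.image_image]
    apply Set.image_congr
    intro y _
    rw [inner_sub_left, sub_smul]
    abel
  rw [h1, h2, (hiso _).euclideanHausdorffMeasure_image]

end Vale.Agent.H9.SymCyl
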