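import Vale.Agent.H9.SymCyl.EuE

/-!
# Cylinder coverings of centrally symmetric convex bodies: relative and absolute form
-/

open MeasureTheory Set Module
open scoped Pointwise ENNReal

namespace Vale.Agent.H9.SymCyl

open Vale.Agent.H76

theorem sym_final (m : ℕ)
    (K : Set (EuclideanSpace ℝ (Fin 3)))
    (hKconv : Convex ℝ K) (hKcomp : IsCompact K) (hKint : (interior K).Nonempty)
    (c : EuclideanSpace ℝ (Fin 3)) (hKsym : ∀ x ∈ K, (2 : ℝ) • c - x ∈ K)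
    (u : Fin m → EuclideanSpace ℝ (Fin 3)) (hu : ∀ i, ‖u i‖ = 1)
    (B : Fin m → Set (EuclideanSpace ℝ (Fin 3)))
    (hB : ∀ i, ∀ x ∈ B i, inner ℝ x (u i) = 0)
    (hcov : K ⊆ ⋃ i, {x | ∃ b ∈ B i, ∃ t : ℝ, x = b + t • u i}) :
    (5 / 12 : ℝ≥0∞) ≤
        ∑ i, μHE[2] (B i) / μHE[2] ((fun x => x - inner ℝ x (u i) • u i) '' K) ∧
      (5 / 12 : ℝ≥0∞) *
          (⨅ v : EuclideanSpace ℝ (Fin 3), ⨅ _ : ‖v‖ = 1,
            μHE[2] ((fun x => x - inner ℝ x v • v) '' K)) ≤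
        ∑ i, μHE[2] (B i) := by
  have h2 := sym_cylinders m K hKconv hKcomp hKint c hKsym u hu B hB hcov
  exact ⟨h2, abs_of_rel Finset.univ _ _ _ _ (fun i _ => iInf₂_le (u i) (hu i)) h2⟩

end Vale.Agent.H9.SymCyl
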