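import Mathlib

/-!
# Linear changes of coordinates in the plane

Sketch. `exists_linear_to_e2`: for `x = (p, q)` with `q ≠ 0` use `(a, b) ↦ (a - (p / q) b, b / q)`,
for `q = 0` (then `p ≠ 0`) use `(a, b) ↦ (b, a / p)`; or extend `x` to a basis.
`exists_scale_of_linearEquiv`: `MeasureTheory.Measure.addHaar_image_linearMap` with
`c = ENNReal.ofReal |LinearMap.det M|`, and the determinant of a linear equivalence is nonzero.
`plane_scale`: `(1 - t) • P ⊆ Q` and `Measure.addHaar_smul` (the plane has dimension two).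
-/

open MeasureTheory Set
open scoped Pointwise ENNReal

namespace Vale.Agent.H9.SymCyl

/-- A nonzero vector of the plane is mapped to `(0, 1)` by a linear automorphism. -/
theorem exists_linear_to_e2 (x : ℝ × ℝ) (hx : x ≠ 0) :
    ∃ M : (ℝ × ℝ) ≃ₗ[ℝ] (ℝ × ℝ), M x = (0, 1) := by
  obtain ⟨p, q⟩ := x
  by_cases hq : q = 0
  · have hp : p ≠ 0 := by
      intro hp
      apply hx
      rw [hp, hq]
      rfl
    refine ⟨{ toFun := fun z => (z.2, z.1 / p)
              map_add' := ?_
              map_smul' := ?_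
              invFun := fun z => (p * z.2, z.1)
              left_inv := ?_
              right_inv := ?_ }, ?_⟩
    · intro z w
      refine Prod.ext ?_ ?_
      · simp
      · simp [add_div]
    · intro c z
      refine Prod.ext ?_ ?_
      · simp
      · simp [mul_div_assoc]
    · intro z
      refine Prod.ext ?_ ?_
      · simp
        field_simp
      · simp
    · intro z
      refine Prod.ext ?_ ?_
      · simp
      · simp
        field_simp
    · change ((q, p / p) : ℝ × ℝ) = (0, 1)
      rw [hq, div_self hp]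
  · refine ⟨{ toFun := fun z => (z.1 - p / q * z.2, z.2 / q)
              map_add' := ?_
              map_smul' := ?_
              invFun := fun z => (z.1 + p * z.2, q * z.2)
              left_inv := ?_
              right_inv := ?_ }, ?_⟩
    · intro z w
      refine Prod.ext ?_ ?_
      · simp
        ring
      · simp [add_div]
    · intro c z
      refine Prod.ext ?_ ?_
      · simp
        ring
      · simp [mul_div_assoc]
    · intro z
      refine Prod.ext ?_ ?_
      · simp
        field_simp
        ring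
      · simp
        field_simp
    · intro z
      refine Prod.ext ?_ ?_
      · simp
        field_simp
        ring
      · simp
        field_simp
    · change ((p - p / q * q, q / q) : ℝ × ℝ) = (0, 1)
      rw [div_self hq, div_mul_cancel₀ p hq, sub_self]

/-- A linear automorphism of the plane multiplies all areas by one positive finite constant. -/
theorem exists_scale_of_linearEquiv (M : (ℝ × ℝ) ≃ₗ[ℝ] (ℝ × ℝ)) :
    ∃ c : ℝ≥0∞, c ≠ 0 ∧ c ≠ ⊤ ∧ ∀ s : Set (ℝ × ℝ), volume (M '' s) = c * volume s := by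
  refine ⟨ENNReal.ofReal |LinearMap.det (M : (ℝ × ℝ) →ₗ[ℝ] (ℝ × ℝ))|, ?_, ENNReal.ofReal_ne_top,
    ?_⟩
  · have hdet : LinearMap.det (M : (ℝ × ℝ) →ₗ[ℝ] (ℝ × ℝ)) ≠ 0 := (LinearEquiv.isUnit_det' M).ne_zero
    have hpos : 0 < |LinearMap.det (M : (ℝ × ℝ) →ₗ[ℝ] (ℝ × ℝ))| := abs_pos.2 hdet
    exact (ENNReal.ofReal_pos.2 hpos).ne'
  · intro s
    exact Measure.addHaar_image_linearMap volume (M : (ℝ × ℝ) →ₗ[ℝ] (ℝ × ℝ)) s

/-- The scaling part of the segment-sum property (`r = 0`). -/
theorem plane_scale {P Q : Set (ℝ × ℝ)} {t : ℝ} (ht0 : 0 ≤ t) (ht1 : t ≤ 1)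
    (hsub : ∀ p ∈ P, (1 - t) • p ∈ Q) :
    ENNReal.ofReal ((1 - t) ^ 2) * volume P ≤ volume Q := by
  have _h0 := ht0
  have _h1 := ht1
  have hsubset : (1 - t) • P ⊆ Q := by
    rintro _ ⟨p, hp, rfl⟩
    exact hsub p hp
  have hvol : volume ((1 - t) • P) = ENNReal.ofReal ((1 - t) ^ 2) * volume P := by
    rw [Measure.addHaar_smul]
    have hfr : Module.finrank ℝ (ℝ × ℝ) = 2 := by simp
    rw [hfr, abs_of_nonneg (sq_nonneg _)]
  rw [← hvol]
  exact measure_mono hsubset

end Vale.Agent.H9.SymCyl
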