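import Vale.Agent.H9.SymCyl.Slice

/-!
# The segment-sum property of the plane in coordinates where the vector is `(0, 1)`

Sketch. Apply `slice_lemma` to `A = (1 - t) • P` (compact, convex, symmetric), `h = (1 - t) / r`,
`τ = t`: a point `(0, b)` of `A` is `(1 - t) • ((b / (1 - t)) • (0, 1))`, so `|b| r ≤ 1 - t` by
`hgauge`; and `(1 - t) • p + c • (0, 1)` is the point `((1 - t) • p)` moved by `c` in the second
coordinate.  Then `vol A = (1 - t) ^ 2 vol P` (`Measure.addHaar_smul`) and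
`(1 + t / h) (1 - t) ^ 2 = (1 - t) ^ 2 + t (1 - t) r`.
-/

open MeasureTheory Set
open scoped Pointwise ENNReal

namespace Vale.Agent.H9.SymCyl

/-- The segment-sum property in coordinates where `x = (0, 1)`. -/
theorem plane_seg_e2 {P Q : Set (ℝ × ℝ)} (hP : IsCompact P) (hPc : Convex ℝ P)
    (hPs : ∀ p ∈ P, -p ∈ P) {r t : ℝ} (hr : 0 < r)
    (hgauge : ∀ σ : ℝ, σ • ((0 : ℝ), (1 : ℝ)) ∈ P → |σ| * r ≤ 1) (ht0 : 0 ≤ t) (ht1 : t < 1)
    (hQ : MeasurableSet Q)
    (hsub : ∀ p ∈ P, ∀ c : ℝ, |c| ≤ t → (1 - t) • p + c • ((0 : ℝ), (1 : ℝ)) ∈ Q) :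
    ENNReal.ofReal ((1 - t) ^ 2 + t * (1 - t) * r) * volume P ≤ volume Q := by
  have h1t : 0 < 1 - t := by linarith
  have hA : IsCompact ((1 - t) • P) := hP.smul (1 - t)
  have hAc : Convex ℝ ((1 - t) • P) := hPc.smul (1 - t)
  have hAs : ∀ p ∈ (1 - t) • P, -p ∈ (1 - t) • P := by
    rintro _ ⟨p, hp, rfl⟩
    exact ⟨-p, hPs p hp, by simp⟩
  have hh : 0 < (1 - t) / r := div_pos h1t hr
  have hax : ∀ b : ℝ, ((0 : ℝ), b) ∈ (1 - t) • P → |b| ≤ (1 - t) / r := by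
    intro b hb
    obtain ⟨p, hp, hpb⟩ := hb
    have hp1 : (1 - t) * p.1 = 0 := by simpa using congrArg Prod.fst hpb
    have hp2 : (1 - t) * p.2 = b := by simpa using congrArg Prod.snd hpb
    have hp10 : p.1 = 0 := by
      rcases mul_eq_zero.mp hp1 with h | h
      · linarith
      · exact h
    have hpe : p.2 • ((0 : ℝ), (1 : ℝ)) = p := by
      ext <;> simp [hp10]
    have hg := hgauge p.2 (by rw [hpe]; exact hp)
    rw [le_div_iff₀ hr, ← hp2, abs_mul, abs_of_pos h1t]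
    nlinarith [abs_nonneg p.2]
  have hsub2 : ∀ p ∈ (1 - t) • P, ∀ c : ℝ, |c| ≤ t → (p.1, p.2 + c) ∈ Q := by
    rintro _ ⟨p, hp, rfl⟩ c hc
    have h0 := hsub p hp c hc
    have e : (1 - t) • p + c • ((0 : ℝ), (1 : ℝ))
        = (((1 - t) • p).1, ((1 - t) • p).2 + c) := by
      ext <;> simp
    rw [e] at h0
    exact h0
  have key := slice_lemma hA hAc hAs hh ht0 hax hQ hsub2
  have hvol : volume ((1 - t) • P) = ENNReal.ofReal ((1 - t) ^ 2) * volume P := by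
    rw [Measure.addHaar_smul]
    congr 2
    simp [abs_of_pos h1t]
  rw [hvol, ← mul_assoc, ← ENNReal.ofReal_mul (by positivity)] at key
  have e : (1 + t / ((1 - t) / r)) * (1 - t) ^ 2 = (1 - t) ^ 2 + t * (1 - t) * r := by
    field_simp
  rw [e] at key
  exact key

end Vale.Agent.H9.SymCyl
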