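import Vale.Agent.H9.SymCyl.Defs
import Vale.Agent.H9.SymCyl.PlaneA
import Vale.Agent.H9.SymCyl.PlaneB

/-!
# Lebesgue measure on the coordinate plane has the segment-sum property

Sketch. Given `P Q x r t` as in `HasSeg`.  If `t = 1` the constant is `0`.  If `P = ∅` the left
side is `0`.  If `r = 0` use `plane_scale` (take `c = 0` in the inclusion).  Otherwise `0 ∈ P`
(symmetric, convex, nonempty), so `x ≠ 0` (else `σ • x ∈ P` for all `σ`, contradicting
`|σ| r ≤ 1`).  Take `M` with `M x = (0, 1)` (`exists_linear_to_e2`) and apply `plane_seg_e2` to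
`M '' P` and `M '' Q` (a linear equivalence of the plane is a homeomorphism, so images of
compact, convex, measurable sets are such); finally cancel the constant of
`exists_scale_of_linearEquiv`.
-/

open MeasureTheory Set
open scoped Pointwise ENNReal

namespace Vale.Agent.H9.SymCyl

theorem hasSeg_plane : HasSeg (volume : Measure (ℝ × ℝ)) := by
  intro P Q x r t hP hPc hPs hr hgauge ht0 ht1 hQ hsub
  rcases eq_or_lt_of_le ht1 with ht | ht
  · subst ht
    simp
  rcases Set.eq_empty_or_nonempty P with hPe | hPne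
  · subst hPe
    simp
  rcases eq_or_lt_of_le hr with hr0 | hrpos
  · subst hr0
    have h := plane_scale (P := P) (Q := Q) ht0 ht1 (fun p hp => by
      have h1 := hsub p hp 0 (by simpa using ht0)
      simpa using h1)
    simpa using h
  -- main case: `0 < r`, `t < 1`, `P` nonempty
  obtain ⟨p0, hp0⟩ := hPne
  have h0P : (0 : ℝ × ℝ) ∈ P := by
    have h1 := hPc hp0 (hPs p0 hp0) (by norm_num : (0 : ℝ) ≤ 1 / 2)
      (by norm_num : (0 : ℝ) ≤ 1 / 2) (by norm_num)
    simpa using h1
  have hx : x ≠ 0 := by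
    intro hx0
    have h1 := hgauge (2 / r) (by rw [hx0, smul_zero]; exact h0P)
    rw [abs_of_pos (by positivity), div_mul_cancel₀ _ hrpos.ne'] at h1
    linarith
  obtain ⟨M, hM⟩ := exists_linear_to_e2 x hx
  obtain ⟨c, hc0, hctop, hc⟩ := exists_scale_of_linearEquiv M
  have hcont : Continuous (fun p : ℝ × ℝ => M p) :=
    M.toLinearMap.continuous_of_finiteDimensional
  have hP' : IsCompact (M '' P) := hP.image hcont
  have hPc' : Convex ℝ (M '' P) := hPc.linear_image M.toLinearMap
  have hPs' : ∀ p ∈ M '' P, -p ∈ M '' P := by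
    rintro _ ⟨p, hp, rfl⟩
    exact ⟨-p, hPs p hp, map_neg M p⟩
  have hgauge' : ∀ σ : ℝ, σ • ((0 : ℝ), (1 : ℝ)) ∈ M '' P → |σ| * r ≤ 1 := by
    intro σ hσ
    obtain ⟨p, hp, hpe⟩ := hσ
    have h1 : M p = M (σ • x) := by rw [hpe, map_smul, hM]
    have h2 : p = σ • x := M.injective h1
    rw [h2] at hp
    exact hgauge σ hp
  have hQ' : MeasurableSet (M '' Q) :=
    (hcont.measurableEmbedding M.injective).measurableSet_image.mpr hQ
  have hsub' : ∀ p ∈ M '' P, ∀ c : ℝ, |c| ≤ t →
      (1 - t) • p + c • ((0 : ℝ), (1 : ℝ)) ∈ M '' Q := by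
    rintro _ ⟨p, hp, rfl⟩ c' hc'
    refine ⟨(1 - t) • p + c' • x, hsub p hp c' hc', ?_⟩
    rw [map_add, map_smul, map_smul, hM]
  have key := plane_seg_e2 hP' hPc' hPs' hrpos hgauge' ht0 ht hQ' hsub'
  rw [hc P, hc Q, mul_left_comm] at key
  exact (ENNReal.mul_le_mul_iff_right hc0 hctop).mp key

end Vale.Agent.H9.SymCyl
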