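import Mathlib

/-!
# Sections of a dilated set, and the largest multiple of a vector inside a symmetric compact set

Sketch. `section_smul`: `(x, z) ∈ lam • T ↔ (lam⁻¹ • x, lam⁻¹ * z) ∈ T`, so the section is
`lam • (section of T over lam⁻¹ • x)`, and `Measure.addHaar_smul` on the line.
`exists_gauge`: the set `{σ : ℝ | σ • x ∈ P}` is closed, bounded (`P` is bounded and `x ≠ 0`)
and contains `1`; take its maximum `s`.  If `σ • x ∈ P` then `σ ≤ s`, and `(-σ) • x ∈ P` by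
symmetry, so `-σ ≤ s`.
-/

open MeasureTheory Set
open scoped Pointwise ENNReal

set_option linter.unusedSectionVars false

namespace Vale.Agent.H9.SymCyl

variable {X : Type*} [NormedAddCommGroup X] [NormedSpace ℝ X]

/-- The chord of `lam • T` over `x` is `lam` times the chord of `T` over `lam⁻¹ • x`. -/
theorem section_smul (T : Set (X × ℝ)) {lam : ℝ} (h0 : 0 < lam) (x : X) :
    volume (Prod.mk x ⁻¹' (lam • T)) =
      ENNReal.ofReal lam * volume (Prod.mk (lam⁻¹ • x) ⁻¹' T) := by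
  have hset : Prod.mk x ⁻¹' (lam • T) = lam • (Prod.mk (lam⁻¹ • x) ⁻¹' T) := by
    ext z
    rw [Set.mem_preimage, Set.mem_smul_set_iff_inv_smul_mem₀ h0.ne',
      Set.mem_smul_set_iff_inv_smul_mem₀ h0.ne', Set.mem_preimage, Prod.smul_mk]
  rw [hset, Measure.addHaar_smul]
  simp [abs_of_pos h0]

/-- The largest multiple of `x` inside a compact centrally symmetric set. -/
theorem exists_gauge {P : Set X} (hP : IsCompact P) (hPs : ∀ p ∈ P, -p ∈ P) {x : X}
    (hx : x ∈ P) (hx0 : x ≠ 0) :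
    ∃ s : ℝ, 1 ≤ s ∧ s • x ∈ P ∧ ∀ σ : ℝ, σ • x ∈ P → |σ| ≤ s := by
  have hcl : IsClosed {σ : ℝ | σ • x ∈ P} :=
    hP.isClosed.preimage (continuous_id.smul continuous_const)
  obtain ⟨R, hR⟩ := isBounded_iff_forall_norm_le.1 hP.isBounded
  have hxn : 0 < ‖x‖ := norm_pos_iff.2 hx0
  have hbd : Bornology.IsBounded {σ : ℝ | σ • x ∈ P} := by
    refine isBounded_iff_forall_norm_le.2 ⟨R / ‖x‖, fun σ hσ => ?_⟩
    have h1 : ‖σ • x‖ ≤ R := hR _ hσ
    rw [norm_smul] at h1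
    rw [le_div_iff₀ hxn]
    exact h1
  have hcpt : IsCompact {σ : ℝ | σ • x ∈ P} := Metric.isCompact_of_isClosed_isBounded hcl hbd
  have h1S : (1 : ℝ) ∈ {σ : ℝ | σ • x ∈ P} := by
    show (1 : ℝ) • x ∈ P
    rw [one_smul]
    exact hx
  obtain ⟨s, hs⟩ := hcpt.exists_isGreatest ⟨1, h1S⟩
  refine ⟨s, hs.2 h1S, hs.1, fun σ hσ => ?_⟩
  have h2 : σ ≤ s := hs.2 hσ
  have h3 : -σ ≤ s := by
    apply hs.2
    show (-σ) • x ∈ P
    rw [neg_smul]
    exact hPs _ hσ
  exact abs_le.2 ⟨by linarith, h2⟩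

end Vale.Agent.H9.SymCyl
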