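import Vale.Agent.H76.Lev

/-!
# Concavity of the chord length along a ray

`section_lower`: for convex `T ⊆ X × ℝ`, if `s • x` lies in the shadow of `T` and
`1 ≤ lam⁻¹ ≤ s`, then `lam⁻¹ • x = (1 - μ) • x + μ • (s • x)` with
`μ = (lam⁻¹ - 1) / (s - 1) ∈ [0, 1]`; fixing a point `(s • x, z₀) ∈ T`, convexity gives
`(1 - μ) • (section over x) + μ • z₀ ⊆ section over lam⁻¹ • x`, and Lebesgue measure on the line
scales by `1 - μ` (`Measure.addHaar_smul`, translation invariance).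

`chord_shell_le`: the real form. With `m` the chord length over `x` and `m'` the chord length
over `lam⁻¹ • x`, `section_lower` gives `(1 - μ) m ≤ m'`, hence
`m - lam m' ≤ m (1 - lam (1 - μ)) = m (1 - lam) s / (s - 1)`.
-/

open MeasureTheory Set
open scoped Pointwise ENNReal

set_option linter.unusedSectionVars false

namespace Vale.Agent.H9.SymCyl

open Vale.Agent.H76

variable {X : Type*} [NormedAddCommGroup X] [NormedSpace ℝ X]

/-- Concavity of the chord length along a ray: the chord over `lam⁻¹ • x`, which lies between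
`x` and `s • x`, is at least `1 - (lam⁻¹ - 1) / (s - 1)` times the chord over `x`. -/
theorem section_lower {T : Set (X × ℝ)} (hTc : Convex ℝ T) {x : X} {s lam : ℝ}
    (h0 : 0 < lam) (h1 : lam < 1) (hs : 1 < s) (hsx : s • x ∈ Prod.fst '' T)
    (hls : 1 ≤ lam * s) :
    ENNReal.ofReal (1 - (lam⁻¹ - 1) / (s - 1)) * volume (Prod.mk x ⁻¹' T) ≤
      volume (Prod.mk (lam⁻¹ • x) ⁻¹' T) := by
  obtain ⟨⟨x', z₀⟩, hq, hqx⟩ := hsx
  simp only at hqx
  subst hqx
  set μ := (lam⁻¹ - 1) / (s - 1) with hμ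
  have hs1 : 0 < s - 1 := by linarith
  have hlam1 : 1 < lam⁻¹ := (one_lt_inv₀ h0).2 h1
  have hlams : lam⁻¹ ≤ s := by
    rw [inv_le_iff_one_le_mul₀' h0]
    exact hls
  have hμ0 : 0 ≤ μ := div_nonneg (by linarith) hs1.le
  have hμ1 : μ ≤ 1 := by
    rw [hμ, div_le_one hs1]
    linarith
  have hkey : lam⁻¹ = (1 - μ) + μ * s := by
    rw [hμ]
    field_simp
    ring
  have hsub : (μ * z₀) +ᵥ ((1 - μ) • (Prod.mk x ⁻¹' T)) ⊆ Prod.mk (lam⁻¹ • x) ⁻¹' T := by
    rintro _ ⟨_, ⟨z, hz, rfl⟩, rfl⟩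
    have hmem := hTc hz hq (sub_nonneg.2 hμ1) hμ0 (by ring)
    simp only [mem_preimage]
    convert hmem using 1
    ext
    · simp only [Prod.fst_add, Prod.smul_fst]
      rw [hkey, add_smul, smul_smul]
    · simp only [Prod.snd_add, Prod.smul_snd, smul_eq_mul, vadd_eq_add]
      ring
  calc ENNReal.ofReal (1 - μ) * volume (Prod.mk x ⁻¹' T)
      = volume ((μ * z₀) +ᵥ ((1 - μ) • (Prod.mk x ⁻¹' T))) := by
        rw [measure_vadd, Measure.addHaar_smul]
        simp [abs_of_nonneg (sub_nonneg.2 hμ1)]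
    _ ≤ volume (Prod.mk (lam⁻¹ • x) ⁻¹' T) := measure_mono hsub

/-- Real form: the part of the chord over `x` outside `lam • T` (chord of `T` over `x` minus
`lam` times the chord of `T` over `lam⁻¹ • x`) is at most `(1 - lam) s / (s - 1)` times the
chord over `x`, when `s • x` is in the shadow and `1 ≤ lam * s`. -/
theorem chord_shell_le {T : Set (X × ℝ)} (hT : IsCompact T) (hTc : Convex ℝ T) {x : X}
    {s lam : ℝ} (h0 : 0 < lam) (h1 : lam < 1) (hsx : s • x ∈ Prod.fst '' T)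
    (hls : 1 ≤ lam * s) :
    (volume (Prod.mk x ⁻¹' T)).toReal - lam * (volume (Prod.mk (lam⁻¹ • x) ⁻¹' T)).toReal ≤
      (volume (Prod.mk x ⁻¹' T)).toReal * ((1 - lam) * s / (s - 1)) := by
  have hs : 1 < s := by
    by_contra hcon
    push Not at hcon
    have hs0 : 0 < s := by
      by_contra hneg
      push Not at hneg
      nlinarith
    nlinarith
  have hs1 : 0 < s - 1 := by linarith
  have hlam1 : 1 < lam⁻¹ := (one_lt_inv₀ h0).2 h1
  have hlams : lam⁻¹ ≤ s := by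
    rw [inv_le_iff_one_le_mul₀' h0]
    exact hls
  have hμ1 : (lam⁻¹ - 1) / (s - 1) ≤ 1 := by
    rw [div_le_one hs1]
    linarith
  have hlow := section_lower hTc h0 h1 hs hsx hls
  have hfin1 : volume (Prod.mk x ⁻¹' T) ≠ ⊤ := (section_isCompact hT x).measure_lt_top.ne
  have hfin2 : volume (Prod.mk (lam⁻¹ • x) ⁻¹' T) ≠ ⊤ :=
    (section_isCompact hT (lam⁻¹ • x)).measure_lt_top.ne
  have hreal : (1 - (lam⁻¹ - 1) / (s - 1)) * (volume (Prod.mk x ⁻¹' T)).toReal ≤
      (volume (Prod.mk (lam⁻¹ • x) ⁻¹' T)).toReal := by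
    have := ENNReal.toReal_mono hfin2 hlow
    rwa [ENNReal.toReal_mul, ENNReal.toReal_ofReal (sub_nonneg.2 hμ1)] at this
  set m := (volume (Prod.mk x ⁻¹' T)).toReal with hm
  set m' := (volume (Prod.mk (lam⁻¹ • x) ⁻¹' T)).toReal with hm'
  have hm0 : 0 ≤ m := ENNReal.toReal_nonneg
  have hid : 1 - lam * (1 - (lam⁻¹ - 1) / (s - 1)) = (1 - lam) * s / (s - 1) := by
    field_simp
    ring
  have h2 : lam * ((1 - (lam⁻¹ - 1) / (s - 1)) * m) ≤ lam * m' :=
    mul_le_mul_of_nonneg_left hreal h0.le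
  calc m - lam * m' ≤ m - lam * ((1 - (lam⁻¹ - 1) / (s - 1)) * m) := by linarith
    _ = m * (1 - lam * (1 - (lam⁻¹ - 1) / (s - 1))) := by ring
    _ = m * ((1 - lam) * s / (s - 1)) := by rw [hid]

end Vale.Agent.H9.SymCyl
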