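import Mathlib

/-!
# Two elementary sums

`shell_sum_le`: let `d j ≤ m` for all `j < N`, and `d j ≤ m (1 - j/N) s / (s - 1)` whenever
`N ≤ j s` (note that then `(1 - j/N) s / (s - 1) ≤ 1`).  Then
`∑ j < N, d j ≤ m (N (1 + 1/s) / 2 + 1)`.
Sketch: with `M = N (s - 1) / s` and `k = N - j`, the bound on `d j / m` is `min 1 (k / M)` for
`k = 1, …, N`; the sum of `min 1 (k / M)` over `k = 1..n` is at most `n (n + 1) / (2 M)` when
`n ≤ M` and at most `n - M / 2 + 1 / 2` when `n ≥ M - 1` (induction on `n`), and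
`N - M / 2 + 1 / 2 ≤ N (1 + 1/s) / 2 + 1`.  For `s = 1` only the first bound is used.

`mass_sum_ge`: `1/2 + 1/N + (1/N) ∑_{j=1}^{N-1} (1 - (j/N)^3) ≥ 5/4`, because
`∑_{j<N} j^3 = (N (N - 1) / 2)^2 ≤ N^4 / 4`.
-/

open Finset

namespace Vale.Agent.H9.SymCyl

/-- The two bounds for the sum of `min 1 (k / M)` over `k = 1, …, n`. -/
theorem sums_min_aux (M : ℝ) (hM : 0 < M) : ∀ n : ℕ,
    ((n : ℝ) ≤ M →
      ∑ i ∈ Finset.range n, min (1 : ℝ) (((i : ℝ) + 1) / M) ≤ (n : ℝ) * ((n : ℝ) + 1) / (2 * M)) ∧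
    (M - 1 ≤ (n : ℝ) →
      ∑ i ∈ Finset.range n, min (1 : ℝ) (((i : ℝ) + 1) / M) ≤ (n : ℝ) - M / 2 + 1 / 2) := by
  intro n
  induction n with
  | zero =>
    refine ⟨fun _ => by simp, fun h => ?_⟩
    simp only [Finset.range_zero, Finset.sum_empty, Nat.cast_zero] at h ⊢
    linarith
  | succ n ih =>
    have hfirst : ((n + 1 : ℕ) : ℝ) ≤ M →
        ∑ i ∈ Finset.range (n + 1), min (1 : ℝ) (((i : ℝ) + 1) / M)
          ≤ ((n + 1 : ℕ) : ℝ) * (((n + 1 : ℕ) : ℝ) + 1) / (2 * M) := by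
      intro h
      push_cast at h ⊢
      rw [Finset.sum_range_succ]
      have h1 := ih.1 (by linarith)
      have h2 : min (1 : ℝ) (((n : ℝ) + 1) / M) ≤ ((n : ℝ) + 1) / M := min_le_right _ _
      have h3 : (n : ℝ) * ((n : ℝ) + 1) / (2 * M) + ((n : ℝ) + 1) / M
          = ((n : ℝ) + 1) * ((n : ℝ) + 1 + 1) / (2 * M) := by
        field_simp
        ring
      linarith
    refine ⟨hfirst, fun h => ?_⟩
    by_cases hc : M - 1 ≤ (n : ℝ)
    · rw [Finset.sum_range_succ]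
      have h1 := ih.2 hc
      have h2 : min (1 : ℝ) (((n : ℝ) + 1) / M) ≤ 1 := min_le_left _ _
      push_cast
      linarith
    · have hlt : (n : ℝ) < M - 1 := lt_of_not_ge hc
      have hle : ((n + 1 : ℕ) : ℝ) ≤ M := by push_cast; linarith
      have h1 := hfirst hle
      refine h1.trans ?_
      push_cast at h hle ⊢
      rw [div_le_iff₀ (by positivity)]
      nlinarith [mul_nonneg (sub_nonneg.2 hle) (by linarith : (0 : ℝ) ≤ (n : ℝ) + 1 - M + 1)]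

theorem shell_sum_le (N : ℕ) (hN : 0 < N) (s m : ℝ) (hs : 1 ≤ s) (hm : 0 ≤ m) (d : ℕ → ℝ)
    (h1 : ∀ j < N, d j ≤ m)
    (h2 : ∀ j < N, (N : ℝ) ≤ j * s → d j ≤ m * ((1 - j / N) * s / (s - 1))) :
    ∑ j ∈ Finset.range N, d j ≤ m * (N * (1 + 1 / s) / 2 + 1) := by
  have hNpos : (0 : ℝ) < (N : ℝ) := by exact_mod_cast hN
  have hspos : (0 : ℝ) < s := by linarith
  rcases eq_or_lt_of_le hs with hs1 | hs1
  · -- `s = 1`
    subst hs1
    have hsum : ∑ j ∈ Finset.range N, d j ≤ ∑ _j ∈ Finset.range N, m :=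
      Finset.sum_le_sum fun j hj => h1 j (Finset.mem_range.1 hj)
    rw [Finset.sum_const, Finset.card_range, nsmul_eq_mul] at hsum
    have : m * ((N : ℝ) * (1 + 1 / 1) / 2 + 1) = (N : ℝ) * m + m := by ring
    linarith
  · -- `1 < s`
    set M : ℝ := (N : ℝ) * (s - 1) / s with hMdef
    have hM : 0 < M := by
      rw [hMdef]
      exact div_pos (mul_pos hNpos (by linarith)) hspos
    have hMle : M ≤ (N : ℝ) := by
      rw [hMdef, div_le_iff₀ hspos]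
      nlinarith
    -- pointwise bound
    have hpt : ∀ j < N, d j ≤ m * min (1 : ℝ) ((((N - 1 - j : ℕ) : ℝ) + 1) / M) := by
      intro j hj
      have hcast : (((N - 1 - j : ℕ) : ℝ) + 1) = (N : ℝ) - (j : ℝ) := by
        have : N - 1 - j + 1 = N - j := by omega
        have h' : (((N - 1 - j : ℕ) : ℝ) + 1) = ((N - j : ℕ) : ℝ) := by
          rw [← this]; push_cast; ring
        rw [h', Nat.cast_sub (le_of_lt hj)]
      rw [hcast]
      have hjN : (j : ℝ) < (N : ℝ) := by exact_mod_cast hj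
      have hb1 : d j ≤ m * 1 := by simpa using h1 j hj
      have hb2 : d j ≤ m * (((N : ℝ) - (j : ℝ)) / M) := by
        by_cases hc : (N : ℝ) ≤ j * s
        · have := h2 j hj hc
          have heq : (1 - (j : ℝ) / N) * s / (s - 1) = ((N : ℝ) - (j : ℝ)) / M := by
            rw [hMdef]
            have hs1' : s - 1 ≠ 0 := by linarith
            field_simp
          rwa [heq] at this
        · have hlt : (j : ℝ) * s < (N : ℝ) := lt_of_not_ge hc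
          have hge : (1 : ℝ) ≤ ((N : ℝ) - (j : ℝ)) / M := by
            rw [le_div_iff₀ hM, hMdef, one_mul, div_le_iff₀ hspos]
            nlinarith
          calc d j ≤ m * 1 := hb1
            _ ≤ m * (((N : ℝ) - (j : ℝ)) / M) := mul_le_mul_of_nonneg_left hge hm
      rcases min_choice (1 : ℝ) (((N : ℝ) - (j : ℝ)) / M) with hmin | hmin
      · rw [hmin]; exact hb1
      · rw [hmin]; exact hb2
    have hsum : ∑ j ∈ Finset.range N, d j
        ≤ ∑ j ∈ Finset.range N, m * min (1 : ℝ) ((((N - 1 - j : ℕ) : ℝ) + 1) / M) :=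
      Finset.sum_le_sum fun j hj => hpt j (Finset.mem_range.1 hj)
    rw [← Finset.mul_sum] at hsum
    have hrefl : ∑ j ∈ Finset.range N, min (1 : ℝ) ((((N - 1 - j : ℕ) : ℝ) + 1) / M)
        = ∑ j ∈ Finset.range N, min (1 : ℝ) (((j : ℝ) + 1) / M) :=
      Finset.sum_range_reflect (fun i : ℕ => min (1 : ℝ) (((i : ℝ) + 1) / M)) N
    rw [hrefl] at hsum
    have haux := (sums_min_aux M hM N).2 (by linarith)
    have hfin : (N : ℝ) - M / 2 + 1 / 2 ≤ (N : ℝ) * (1 + 1 / s) / 2 + 1 := by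
      have : M = (N : ℝ) * (1 - 1 / s) := by
        rw [hMdef]; field_simp
      rw [this]
      nlinarith
    calc ∑ j ∈ Finset.range N, d j
        ≤ m * ∑ j ∈ Finset.range N, min (1 : ℝ) (((j : ℝ) + 1) / M) := hsum
      _ ≤ m * ((N : ℝ) - M / 2 + 1 / 2) := mul_le_mul_of_nonneg_left haux hm
      _ ≤ m * ((N : ℝ) * (1 + 1 / s) / 2 + 1) := mul_le_mul_of_nonneg_left hfin hm

/-- Sum of cubes, in the form used below. -/
theorem sums_cubes (n : ℕ) :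
    ∑ j ∈ Finset.Ico 1 (n + 1), ((j : ℝ)) ^ 3 = (((n : ℝ) + 1) * (n : ℝ) / 2) ^ 2 := by
  induction n with
  | zero => simp
  | succ n ih =>
    rw [Finset.sum_Ico_succ_top (by omega), ih]
    push_cast
    ring

theorem mass_sum_ge (N : ℕ) (hN : 0 < N) :
    (5 / 4 : ℝ) ≤ 1 / 2 + 1 / (N : ℝ) +
      1 / (N : ℝ) * ∑ j ∈ Finset.Ico 1 N, (1 - ((j : ℝ) / N) ^ 3) := by
  obtain ⟨n, rfl⟩ : ∃ n, N = n + 1 := ⟨N - 1, by omega⟩
  have hNpos : (0 : ℝ) < ((n + 1 : ℕ) : ℝ) := by exact_mod_cast hN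
  have hsum : ∑ j ∈ Finset.Ico 1 (n + 1), (1 - ((j : ℝ) / ((n + 1 : ℕ) : ℝ)) ^ 3)
      = (n : ℝ) - (((n : ℝ) + 1) * (n : ℝ) / 2) ^ 2 / ((n + 1 : ℕ) : ℝ) ^ 3 := by
    rw [Finset.sum_sub_distrib]
    have hc : ∑ _j ∈ Finset.Ico 1 (n + 1), (1 : ℝ) = (n : ℝ) := by simp
    have hd : ∑ j ∈ Finset.Ico 1 (n + 1), ((j : ℝ) / ((n + 1 : ℕ) : ℝ)) ^ 3
        = (∑ j ∈ Finset.Ico 1 (n + 1), ((j : ℝ)) ^ 3) / ((n + 1 : ℕ) : ℝ) ^ 3 := by
      rw [Finset.sum_div]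
      exact Finset.sum_congr rfl fun j _ => div_pow _ _ _
    rw [hc, hd, sums_cubes]
  rw [hsum]
  push_cast at hNpos ⊢
  have hn : (0 : ℝ) ≤ (n : ℝ) := Nat.cast_nonneg n
  have key : (((n : ℝ) + 1) * (n : ℝ) / 2) ^ 2 / ((n : ℝ) + 1) ^ 3
      = (n : ℝ) ^ 2 / (4 * ((n : ℝ) + 1)) := by
    field_simp
    ring
  rw [key]
  have h4 : (n : ℝ) ^ 2 / (4 * ((n : ℝ) + 1)) ≤ ((n : ℝ) + 1) / 4 - 1 / 4 * 0 - 0 := by
    rw [div_le_iff₀ (by positivity)]
    nlinarith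
  have hexp : 1 / 2 + 1 / ((n : ℝ) + 1) + 1 / ((n : ℝ) + 1) * ((n : ℝ) - (n : ℝ) ^ 2 / (4 * ((n : ℝ) + 1)))
      = 3 / 2 - (n : ℝ) ^ 2 / (4 * ((n : ℝ) + 1) ^ 2) := by
    field_simp
    ring
  rw [hexp]
  have h5 : (n : ℝ) ^ 2 / (4 * ((n : ℝ) + 1) ^ 2) ≤ 1 / 4 := by
    rw [div_le_iff₀ (by positivity)]
    nlinarith
  linarith

end Vale.Agent.H9.SymCyl
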