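import Vale.Agent.H9.SymCyl.ClaimC
import Vale.Agent.H9.SymCyl.PwA
import Vale.Agent.H9.SymCyl.PwB
import Vale.Agent.H9.SymCyl.Sums

/-!
# Averaged shells: pointwise bound on chords, real form

`T ⊆ X × ℝ` compact convex centrally symmetric, `P = fst '' T`, `A = ν P > 0`, `V = vol T`,
`m y` = length of the chord of `T` over `y`.  For `N ≥ 1` and every `x ∈ P`:

  `(1/2 + 1/N) m x + (1/N) ∑_{j=1}^{N-1} (m x - (j/N) m ((j/N)⁻¹ • x)) ≤ (3 + 3/N) V / A`.

Sketch. Put `m = m x` (if `m = 0` the left side is `≤ 0`).  Then `x ∈ Lev T m`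
(`ofReal_le_volume_section_iff`).
* `x = 0`: each summand is `(1 - j/N) m`, the left side is `m + m/(2N)`, and `claimC` with
  `r = 0` gives `m A / 3 ≤ V`.
* `x ≠ 0`: `exists_gauge` gives `s ≥ 1` with `s • x ∈ P` and `|σ| ≤ s` whenever `σ • x ∈ P`;
  `claimC` with `r = 1/s` gives `m (1/3 + 1/(6 s)) A ≤ V`.  With `d 0 = m` and
  `d j = m x - (j/N) m ((j/N)⁻¹ • x)` for `1 ≤ j < N` we have `d j ≤ m`, and
  `d j ≤ m (1 - j/N) s / (s - 1)` when `N ≤ j s` (`chord_shell_le` with `lam = j/N`), so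
  `shell_sum_le` gives `∑_{j<N} d j ≤ m (N (1 + 1/s) / 2 + 1)`.  Hence the left side is
  `m/2 + (1/N) ∑_{j<N} d j ≤ m (2 + 1/s) / 2 + m / N ≤ 3 V / A + 3 V / (A N)`.
-/

open MeasureTheory Set
open scoped Pointwise ENNReal

set_option linter.unusedSectionVars false

namespace Vale.Agent.H9.SymCyl

open Vale.Agent.H76

variable {X : Type*} [NormedAddCommGroup X] [NormedSpace ℝ X] [MeasurableSpace X]

/-- Real form of `claimC`. -/
theorem pwn_claimC_real [BorelSpace X] [SecondCountableTopology X] (ν : Measure X)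
    [SigmaFinite ν] [IsFiniteMeasureOnCompacts ν] (hSeg : HasSeg ν) {T : Set (X × ℝ)}
    (hT : IsCompact T) (hTc : Convex ℝ T) (hTs : ∀ p ∈ T, -p ∈ T) {x : X} {m r : ℝ}
    (hm : 0 ≤ m) (hx : x ∈ Lev T m) (hr : 0 ≤ r)
    (hxr : ∀ σ : ℝ, σ • x ∈ Prod.fst '' T → |σ| * r ≤ 1) :
    m * (1 / 3 + r / 6) * (ν (Prod.fst '' T)).toReal ≤ ((ν.prod volume) T).toReal := by
  have h := claimC ν hSeg hT hTc hTs hm hx hr hxr
  have hPfin : ν (Prod.fst '' T) ≠ ⊤ := (hT.image continuous_fst).measure_lt_top.ne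
  have hVfin : (ν.prod volume) T ≠ ⊤ := hT.measure_lt_top.ne
  have hc : 0 ≤ m * (1 / 3 + r / 6) := by positivity
  have h2 := ENNReal.toReal_mono hVfin h
  rwa [ENNReal.toReal_mul, ENNReal.toReal_ofReal hc] at h2

/-- Gauss sum over `Ico 1 N`. -/
theorem pwn_gauss (N : ℕ) (hN : 0 < N) :
    ∑ j ∈ Finset.Ico 1 N, (j : ℝ) = (N : ℝ) * (N - 1) / 2 := by
  induction N with
  | zero => exact absurd hN (lt_irrefl 0)
  | succ n ih =>
    rcases Nat.eq_zero_or_pos n with h0 | hpos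
    · subst h0
      simp
    · rw [Finset.sum_Ico_succ_top hpos, ih hpos]
      push_cast
      ring

theorem pointwiseN_real [BorelSpace X] [SecondCountableTopology X] (ν : Measure X)
    [SigmaFinite ν] [IsFiniteMeasureOnCompacts ν] (hSeg : HasSeg ν) {T : Set (X × ℝ)}
    (hT : IsCompact T) (hTc : Convex ℝ T) (hTs : ∀ p ∈ T, -p ∈ T) (N : ℕ) (hN : 0 < N)
    (hP0 : ν (Prod.fst '' T) ≠ 0) {x : X} (hx : x ∈ Prod.fst '' T) :
    (1 / 2 + 1 / (N : ℝ)) * (volume (Prod.mk x ⁻¹' T)).toReal +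
        1 / (N : ℝ) * ∑ j ∈ Finset.Ico 1 N,
          ((volume (Prod.mk x ⁻¹' T)).toReal -
            ((j : ℝ) / N) * (volume (Prod.mk (((j : ℝ) / N)⁻¹ • x) ⁻¹' T)).toReal) ≤
      (3 + 3 / (N : ℝ)) * ((ν.prod volume) T).toReal / (ν (Prod.fst '' T)).toReal := by
  set P : Set X := Prod.fst '' T with hPdef
  have hP : IsCompact P := hT.image continuous_fst
  have hPs : ∀ p ∈ P, -p ∈ P := by
    rintro _ ⟨q, hq, rfl⟩
    exact ⟨-q, hTs q hq, rfl⟩
  have hPfin : ν P ≠ ⊤ := hP.measure_lt_top.ne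
  set A : ℝ := (ν P).toReal with hA
  have hApos : 0 < A := ENNReal.toReal_pos hP0 hPfin
  set V : ℝ := ((ν.prod volume) T).toReal with hV
  set m : ℝ := (volume (Prod.mk x ⁻¹' T)).toReal with hmdef
  have hm0 : 0 ≤ m := ENNReal.toReal_nonneg
  have hNpos : (0 : ℝ) < (N : ℝ) := by exact_mod_cast hN
  have hfin : volume (Prod.mk x ⁻¹' T) ≠ ⊤ := (section_isCompact hT x).measure_lt_top.ne
  -- `x` lies in the level set at height `m`
  have hxLev : x ∈ Lev T m := by
    rcases hm0.eq_or_lt with h0 | hpos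
    · rw [← h0, Lev_of_nonpos T le_rfl]
      exact hx
    · rw [← ofReal_le_volume_section_iff hT hTc x hpos, hmdef, ENNReal.ofReal_toReal hfin]
  -- the rewriting of the right-hand side
  have hgoal : ∀ L : ℝ, L * A ≤ (3 + 3 / (N : ℝ)) * V → L ≤ (3 + 3 / (N : ℝ)) * V / A := by
    intro L hL
    rw [le_div_iff₀ hApos]
    exact hL
  apply hgoal
  by_cases hx0 : x = 0
  · -- the centre
    have hC := pwn_claimC_real ν hSeg hT hTc hTs hm0 hxLev (le_refl (0 : ℝ))
      (fun σ _ => by simp)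
    have hterm : ∀ j ∈ Finset.Ico 1 N,
        (m - ((j : ℝ) / N) * (volume (Prod.mk (((j : ℝ) / N)⁻¹ • x) ⁻¹' T)).toReal) =
          m - m / N * (j : ℝ) := by
      intro j _
      rw [hx0, smul_zero, ← hx0]
      ring
    rw [Finset.sum_congr rfl hterm, Finset.sum_sub_distrib, ← Finset.mul_sum, pwn_gauss N hN,
      Finset.sum_const, Nat.card_Ico, nsmul_eq_mul, Nat.cast_sub hN]
    have h1 : m * A ≤ 3 * V := by
      have : m * (1 / 3 + 0 / 6) * A ≤ V := hC
      nlinarith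
    have hmA : 0 ≤ m * A := mul_nonneg hm0 hApos.le
    have hV0 : 0 ≤ V := ENNReal.toReal_nonneg
    have e : ((1 / 2 + 1 / (N : ℝ)) * m +
        1 / (N : ℝ) * (((N : ℝ) - (1 : ℕ)) * m - m / N * ((N : ℝ) * (N - 1) / 2))) * A =
        (1 + 1 / (2 * (N : ℝ))) * (m * A) := by
      field_simp
      push_cast
      ring
    rw [e]
    have h2 : (1 + 1 / (2 * (N : ℝ))) * (m * A) ≤ (1 + 1 / (2 * (N : ℝ))) * (3 * V) :=
      mul_le_mul_of_nonneg_left h1 (by positivity)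
    have h3 : (1 + 1 / (2 * (N : ℝ))) * (3 * V) ≤ (3 + 3 / (N : ℝ)) * V := by
      have h4 : (1 + 1 / (2 * (N : ℝ))) * 3 ≤ 3 + 3 / (N : ℝ) := by
        have : 1 / (2 * (N : ℝ)) * 3 ≤ 3 / (N : ℝ) := by
          rw [div_mul_eq_mul_div, one_mul, div_le_div_iff₀ (by positivity) hNpos]
          nlinarith
        linarith
      nlinarith
    exact h2.trans h3
  · -- a point different from the centre
    obtain ⟨s, hs1, hsx, hsmax⟩ := exists_gauge hP hPs hx hx0
    have hs0 : 0 < s := by linarith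
    have hxr : ∀ σ : ℝ, σ • x ∈ Prod.fst '' T → |σ| * (1 / s) ≤ 1 := by
      intro σ hσ
      rw [mul_one_div, div_le_one hs0]
      exact hsmax σ hσ
    have hC := pwn_claimC_real ν hSeg hT hTc hTs hm0 hxLev (by positivity : (0 : ℝ) ≤ 1 / s) hxr
    set d : ℕ → ℝ := fun j => if j = 0 then m else
      m - ((j : ℝ) / N) * (volume (Prod.mk (((j : ℝ) / N)⁻¹ • x) ⁻¹' T)).toReal with hd
    have hd1 : ∀ j < N, d j ≤ m := by
      intro j _
      simp only [hd]
      split_ifs with hj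
      · exact le_refl m
      · have : 0 ≤ ((j : ℝ) / N) * (volume (Prod.mk (((j : ℝ) / N)⁻¹ • x) ⁻¹' T)).toReal :=
          mul_nonneg (by positivity) ENNReal.toReal_nonneg
        linarith
    have hd2 : ∀ j < N, (N : ℝ) ≤ j * s → d j ≤ m * ((1 - j / N) * s / (s - 1)) := by
      intro j hjN hjs
      have hj0 : j ≠ 0 := by
        rintro rfl
        simp at hjs
        linarith
      have hjpos : (0 : ℝ) < (j : ℝ) := by exact_mod_cast Nat.pos_of_ne_zero hj0
      simp only [hd, if_neg hj0]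
      have hlam0 : 0 < (j : ℝ) / N := by positivity
      have hlam1 : (j : ℝ) / N < 1 := by
        rw [div_lt_one hNpos]
        exact_mod_cast hjN
      have hls : 1 ≤ (j : ℝ) / N * s := by
        rw [div_mul_eq_mul_div, le_div_iff₀ hNpos]
        linarith
      exact chord_shell_le hT hTc hlam0 hlam1 hsx hls
    have hsum := shell_sum_le N hN s m hs1 hm0 d hd1 hd2
    have hsplit : ∑ j ∈ Finset.range N, d j = m + ∑ j ∈ Finset.Ico 1 N,
        (m - ((j : ℝ) / N) * (volume (Prod.mk (((j : ℝ) / N)⁻¹ • x) ⁻¹' T)).toReal) := by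
      rw [Finset.range_eq_Ico, Finset.sum_eq_sum_Ico_succ_bot hN]
      congr 1
      apply Finset.sum_congr rfl
      intro j hj
      have hj0 : j ≠ 0 := by
        have := (Finset.mem_Ico.1 hj).1
        omega
      simp only [hd, if_neg hj0]
    rw [hsplit] at hsum
    set Sg : ℝ := ∑ j ∈ Finset.Ico 1 N,
        (m - ((j : ℝ) / N) * (volume (Prod.mk (((j : ℝ) / N)⁻¹ • x) ⁻¹' T)).toReal) with hSg
    have hV0 : 0 ≤ V := ENNReal.toReal_nonneg
    have hmA : 0 ≤ m * A := mul_nonneg hm0 hApos.le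
    -- `hC : m * (1/3 + (1/s)/6) * A ≤ V`, `hsum : m + Sg ≤ m * (N * (1 + 1/s) / 2 + 1)`
    have h1 : m * A * (2 + 1 / s) ≤ 6 * V := by nlinarith
    have h2 : m * A ≤ 3 * V := by
      have : 0 ≤ m * A * (1 / s) := mul_nonneg hmA (by positivity)
      nlinarith
    have h3 : Sg ≤ m * (N * (1 + 1 / s) / 2) := by linarith
    have h4 : 1 / (N : ℝ) * Sg ≤ m * ((1 + 1 / s) / 2) := by
      rw [div_mul_eq_mul_div, one_mul, div_le_iff₀ hNpos]
      calc Sg ≤ m * (N * (1 + 1 / s) / 2) := h3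
        _ = m * ((1 + 1 / s) / 2) * N := by ring
    have h5 : ((1 / 2 + 1 / (N : ℝ)) * m + 1 / (N : ℝ) * Sg) * A ≤
        (m * ((2 + 1 / s) / 2) + m / N) * A := by
      apply mul_le_mul_of_nonneg_right _ hApos.le
      have : (1 / 2 + 1 / (N : ℝ)) * m = m / 2 + m / N := by ring
      linarith
    have h6 : (m * ((2 + 1 / s) / 2) + m / N) * A = m * A * (2 + 1 / s) / 2 + m * A / N := by
      ring
    have h7 : m * A / N ≤ 3 * V / N := div_le_div_of_nonneg_right h2 hNpos.le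
    have h8 : (3 + 3 / (N : ℝ)) * V = 6 * V / 2 + 3 * V / N := by ring
    rw [h8]
    calc ((1 / 2 + 1 / (N : ℝ)) * m + 1 / (N : ℝ) * Sg) * A
        ≤ (m * ((2 + 1 / s) / 2) + m / N) * A := h5
      _ = m * A * (2 + 1 / s) / 2 + m * A / N := h6
      _ ≤ 6 * V / 2 + 3 * V / N := by linarith

end Vale.Agent.H9.SymCyl
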