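import Vale.Agent.H9.SymCyl.PwN

/-!
# Averaged shells: pointwise bound on chords

The statement of `pointwiseN_real` in terms of the sections of the shells `T \ (j/N) • T`.

Sketch. If `x ∉ fst '' T` all sections are empty.  Otherwise `0 ∈ T` (symmetric, convex,
nonempty), so `(j/N) • T ⊆ T`, the section of `T \ (j/N) • T` over `x` is the difference of the
sections, its length is the difference of the lengths (`measure_diff`, all sections are compact
hence of finite length), the section of `(j/N) • T` over `x` has length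
`(j/N) * length of the section of T over (j/N)⁻¹ • x` (`section_smul`), and the claim is
`pointwiseN_real` after converting between `ENNReal` and real numbers.
-/

open MeasureTheory Set
open scoped Pointwise ENNReal

set_option linter.unusedSectionVars false

namespace Vale.Agent.H9.SymCyl

open Vale.Agent.H76

variable {X : Type*} [NormedAddCommGroup X] [NormedSpace ℝ X] [MeasurableSpace X]

theorem pointwiseN [BorelSpace X] [SecondCountableTopology X] (ν : Measure X)
    [SigmaFinite ν] [IsFiniteMeasureOnCompacts ν] (hSeg : HasSeg ν) {T : Set (X × ℝ)}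
    (hT : IsCompact T) (hTc : Convex ℝ T) (hTs : ∀ p ∈ T, -p ∈ T) (N : ℕ) (hN : 0 < N)
    (hP0 : ν (Prod.fst '' T) ≠ 0) (x : X) :
    ENNReal.ofReal (1 / 2 + 1 / (N : ℝ)) * volume (Prod.mk x ⁻¹' T) +
        ENNReal.ofReal (1 / (N : ℝ)) * ∑ j ∈ Finset.Ico 1 N,
          volume (Prod.mk x ⁻¹' (T \ ((j : ℝ) / N) • T)) ≤
      ENNReal.ofReal (3 + 3 / (N : ℝ)) * (ν.prod volume) T / ν (Prod.fst '' T) := by
  classical
  by_cases hx : x ∈ Prod.fst '' T
  swap
  · have hemp : Prod.mk x ⁻¹' T = ∅ := by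
      ext z
      simp only [mem_preimage, mem_empty_iff_false, iff_false]
      intro hz
      exact hx ⟨(x, z), hz, rfl⟩
    have hemp2 : ∀ j : ℕ, Prod.mk x ⁻¹' (T \ ((j : ℝ) / N) • T) = ∅ := by
      intro j
      apply Set.eq_empty_of_subset_empty
      rw [← hemp]
      exact preimage_mono Set.sdiff_subset
    simp [hemp, hemp2]
  · have hNpos : (0 : ℝ) < N := Nat.cast_pos.2 hN
    have h0T : (0 : X × ℝ) ∈ T := by
      obtain ⟨p, hp, -⟩ := hx
      have h := hTc hp (hTs p hp) (by norm_num : (0 : ℝ) ≤ 1 / 2)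
        (by norm_num : (0 : ℝ) ≤ 1 / 2) (by norm_num)
      simpa using h
    have hsub : ∀ lam : ℝ, 0 ≤ lam → lam ≤ 1 → lam • T ⊆ T := by
      intro lam h0 h1 q hq
      obtain ⟨q', hq', rfl⟩ := hq
      have h := hTc hq' h0T h0 (sub_nonneg.2 h1) (by ring)
      simpa using h
    have hfin : ∀ y : X, volume (Prod.mk y ⁻¹' T) ≠ ⊤ := fun y =>
      (section_isCompact hT y).measure_lt_top.ne
    have hlam : ∀ j ∈ Finset.Ico 1 N, (0 : ℝ) < (j : ℝ) / N ∧ (j : ℝ) / N ≤ 1 := by
      intro j hj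
      rw [Finset.mem_Ico] at hj
      refine ⟨div_pos (Nat.cast_pos.2 hj.1) hNpos, ?_⟩
      rw [div_le_one hNpos]
      exact_mod_cast hj.2.le
    have hsec : ∀ j ∈ Finset.Ico 1 N,
        volume (Prod.mk x ⁻¹' (((j : ℝ) / N) • T)) =
          ENNReal.ofReal (((j : ℝ) / N) *
            (volume (Prod.mk (((j : ℝ) / N)⁻¹ • x) ⁻¹' T)).toReal) := by
      intro j hj
      rw [section_smul T (hlam j hj).1 x, ENNReal.ofReal_mul (hlam j hj).1.le,
        ENNReal.ofReal_toReal (hfin _)]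
    have hnn : ∀ j ∈ Finset.Ico 1 N,
        0 ≤ (volume (Prod.mk x ⁻¹' T)).toReal -
          ((j : ℝ) / N) * (volume (Prod.mk (((j : ℝ) / N)⁻¹ • x) ⁻¹' T)).toReal := by
      intro j hj
      have hle : volume (Prod.mk x ⁻¹' (((j : ℝ) / N) • T)) ≤ volume (Prod.mk x ⁻¹' T) :=
        measure_mono (preimage_mono (hsub _ (hlam j hj).1.le (hlam j hj).2))
      rw [hsec j hj] at hle
      have h2 := ENNReal.toReal_mono (hfin x) hle
      rw [ENNReal.toReal_ofReal (mul_nonneg (hlam j hj).1.le ENNReal.toReal_nonneg)] at h2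
      linarith
    have key : ∀ j ∈ Finset.Ico 1 N,
        volume (Prod.mk x ⁻¹' (T \ ((j : ℝ) / N) • T)) =
          ENNReal.ofReal ((volume (Prod.mk x ⁻¹' T)).toReal -
            ((j : ℝ) / N) * (volume (Prod.mk (((j : ℝ) / N)⁻¹ • x) ⁻¹' T)).toReal) := by
      intro j hj
      have hcpt : IsCompact (((j : ℝ) / N) • T) := hT.smul _
      have hmeas : MeasurableSet (Prod.mk x ⁻¹' (((j : ℝ) / N) • T)) :=
        (section_isCompact hcpt x).isClosed.measurableSet
      have hfin2 : volume (Prod.mk x ⁻¹' (((j : ℝ) / N) • T)) ≠ ⊤ :=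
        (section_isCompact hcpt x).measure_lt_top.ne
      have hset : Prod.mk x ⁻¹' (T \ ((j : ℝ) / N) • T) =
          Prod.mk x ⁻¹' T \ Prod.mk x ⁻¹' (((j : ℝ) / N) • T) := rfl
      rw [hset, measure_sdiff (preimage_mono (hsub _ (hlam j hj).1.le (hlam j hj).2))
        hmeas.nullMeasurableSet hfin2, hsec j hj,
        ENNReal.ofReal_sub _ (mul_nonneg (hlam j hj).1.le ENNReal.toReal_nonneg),
        ENNReal.ofReal_toReal (hfin x)]
    have hVfin : (ν.prod volume) T ≠ ⊤ := hT.measure_lt_top.ne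
    have hAfin : ν (Prod.fst '' T) ≠ ⊤ := (hT.image continuous_fst).measure_lt_top.ne
    have hApos : 0 < (ν (Prod.fst '' T)).toReal := ENNReal.toReal_pos hP0 hAfin
    have hreal := pointwiseN_real ν hSeg hT hTc hTs N hN hP0 hx
    have hc1 : (0 : ℝ) ≤ 1 / 2 + 1 / (N : ℝ) := by positivity
    have hc2 : (0 : ℝ) ≤ 1 / (N : ℝ) := by positivity
    have hc3 : (0 : ℝ) ≤ 3 + 3 / (N : ℝ) := by positivity
    calc ENNReal.ofReal (1 / 2 + 1 / (N : ℝ)) * volume (Prod.mk x ⁻¹' T) +
          ENNReal.ofReal (1 / (N : ℝ)) * ∑ j ∈ Finset.Ico 1 N,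
            volume (Prod.mk x ⁻¹' (T \ ((j : ℝ) / N) • T))
        = ENNReal.ofReal ((1 / 2 + 1 / (N : ℝ)) * (volume (Prod.mk x ⁻¹' T)).toReal +
            1 / (N : ℝ) * ∑ j ∈ Finset.Ico 1 N,
              ((volume (Prod.mk x ⁻¹' T)).toReal -
                ((j : ℝ) / N) * (volume (Prod.mk (((j : ℝ) / N)⁻¹ • x) ⁻¹' T)).toReal)) := by
          rw [Finset.sum_congr rfl key, ← ENNReal.ofReal_sum_of_nonneg hnn,
            ENNReal.ofReal_add (mul_nonneg hc1 ENNReal.toReal_nonneg)
              (mul_nonneg hc2 (Finset.sum_nonneg hnn)),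
            ENNReal.ofReal_mul hc1, ENNReal.ofReal_mul hc2, ENNReal.ofReal_toReal (hfin x)]
      _ ≤ ENNReal.ofReal ((3 + 3 / (N : ℝ)) * ((ν.prod volume) T).toReal /
            (ν (Prod.fst '' T)).toReal) := ENNReal.ofReal_le_ofReal hreal
      _ = ENNReal.ofReal (3 + 3 / (N : ℝ)) * (ν.prod volume) T / ν (Prod.fst '' T) := by
          rw [ENNReal.ofReal_div_of_pos hApos, ENNReal.ofReal_mul hc3,
            ENNReal.ofReal_toReal hVfin, ENNReal.ofReal_toReal hAfin]

end Vale.Agent.H9.SymCyl
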