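import Vale.Agent.H9.SymCyl.PwNE

/-!
# Averaged shells of a symmetric convex set over a measurable base set

Sketch. By `Measure.prod_apply` each term on the left is the integral over `x` of the length of
the section over `x`; the sections of `S ∩ B ×ˢ univ` are the sections of `S` for `x ∈ B` and
empty otherwise, and the sections of subsets of `T` are empty for `x ∉ fst '' T`.  So the left
side is the integral over `B ∩ fst '' T` of the left side of `pointwiseN`, which is bounded by
the constant on the right of `pointwiseN`.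
-/

open MeasureTheory Set
open scoped Pointwise ENNReal

set_option linter.unusedSectionVars false

namespace Vale.Agent.H9.SymCyl

open Vale.Agent.H76

variable {X : Type*} [NormedAddCommGroup X] [NormedSpace ℝ X] [MeasurableSpace X]

theorem shellN_bound [BorelSpace X] [SecondCountableTopology X] (ν : Measure X)
    [SigmaFinite ν] [IsFiniteMeasureOnCompacts ν] (hSeg : HasSeg ν) {T : Set (X × ℝ)}
    (hT : IsCompact T) (hTc : Convex ℝ T) (hTs : ∀ p ∈ T, -p ∈ T) (N : ℕ) (hN : 0 < N)
    (hP0 : ν (Prod.fst '' T) ≠ 0) {B : Set X} (hB : MeasurableSet B) :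
    ENNReal.ofReal (1 / 2 + 1 / (N : ℝ)) * (ν.prod volume) (T ∩ B ×ˢ univ) +
        ENNReal.ofReal (1 / (N : ℝ)) * ∑ j ∈ Finset.Ico 1 N,
          (ν.prod volume) ((T \ ((j : ℝ) / N) • T) ∩ B ×ˢ univ) ≤
      ENNReal.ofReal (3 + 3 / (N : ℝ)) * (ν.prod volume) T / ν (Prod.fst '' T) *
        ν (B ∩ Prod.fst '' T) := by
  classical
  have hPc : IsCompact (Prod.fst '' T) := hT.image continuous_fst
  have hPm : MeasurableSet (Prod.fst '' T) := hPc.measurableSet
  have hTm : MeasurableSet T := hT.measurableSet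
  have hGm : MeasurableSet (B ∩ Prod.fst '' T) := hB.inter hPm
  have hBu : MeasurableSet (B ×ˢ (univ : Set ℝ)) := hB.prod MeasurableSet.univ
  -- the measure of a subset of `T` over `B` as an integral of section lengths
  have shellN_key : ∀ S : Set (X × ℝ), MeasurableSet S → S ⊆ T →
      (ν.prod volume) (S ∩ B ×ˢ univ) =
        ∫⁻ x in B ∩ Prod.fst '' T, volume (Prod.mk x ⁻¹' S) ∂ν := by
    intro S hS hST
    rw [Measure.prod_apply (hS.inter hBu), ← lintegral_indicator hGm]
    congr 1
    ext x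
    by_cases hx : x ∈ B ∩ Prod.fst '' T
    · rw [indicator_of_mem hx]
      congr 1
      ext y
      simp [hx.1]
    · rw [indicator_of_notMem hx]
      have hempty : Prod.mk x ⁻¹' (S ∩ B ×ˢ univ) = ∅ := by
        ext y
        simp only [mem_preimage, mem_inter_iff, mem_prod, mem_univ, and_true,
          mem_empty_iff_false, iff_false, not_and]
        intro hyS hxB
        exact hx ⟨hxB, ⟨(x, y), hST hyS, rfl⟩⟩
      rw [hempty, measure_empty]
  have hSj : ∀ j : ℕ, MeasurableSet (T \ ((j : ℝ) / N) • T) :=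
    fun j => hTm.diff (hT.smul _).measurableSet
  have hmeas : ∀ S : Set (X × ℝ), MeasurableSet S →
      Measurable (fun x => volume (Prod.mk x ⁻¹' S)) :=
    fun S hS => measurable_measure_prodMk_left hS
  have hsum : ∑ j ∈ Finset.Ico 1 N,
      (ν.prod volume) ((T \ ((j : ℝ) / N) • T) ∩ B ×ˢ univ) =
      ∑ j ∈ Finset.Ico 1 N, ∫⁻ x in B ∩ Prod.fst '' T,
        volume (Prod.mk x ⁻¹' (T \ ((j : ℝ) / N) • T)) ∂ν :=
    Finset.sum_congr rfl (fun j _ => shellN_key _ (hSj j) sdiff_subset)
  rw [shellN_key T hTm Subset.rfl, hsum,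
    ← lintegral_finsetSum _ (fun j _ => hmeas _ (hSj j)),
    ← lintegral_const_mul _ (hmeas T hTm),
    ← lintegral_const_mul _ (Finset.measurable_sum _ (fun j _ => hmeas _ (hSj j))),
    ← lintegral_add_left ((hmeas T hTm).const_mul _)]
  calc ∫⁻ x in B ∩ Prod.fst '' T,
        (ENNReal.ofReal (1 / 2 + 1 / (N : ℝ)) * volume (Prod.mk x ⁻¹' T) +
          ENNReal.ofReal (1 / (N : ℝ)) * ∑ j ∈ Finset.Ico 1 N,
            volume (Prod.mk x ⁻¹' (T \ ((j : ℝ) / N) • T))) ∂ν
      ≤ ∫⁻ _x in B ∩ Prod.fst '' T,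
          ENNReal.ofReal (3 + 3 / (N : ℝ)) * (ν.prod volume) T / ν (Prod.fst '' T) ∂ν :=
        lintegral_mono (fun x => pointwiseN ν hSeg hT hTc hTs N hN hP0 x)
    _ = ENNReal.ofReal (3 + 3 / (N : ℝ)) * (ν.prod volume) T / ν (Prod.fst '' T) *
          ν (B ∩ Prod.fst '' T) := by
        rw [setLIntegral_const]

end Vale.Agent.H9.SymCyl
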