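import Mathlib
import Vale.Agent.H76.Lev

/-!
# A slicing lemma in the plane

For a compact convex centrally symmetric set `A` of the plane which meets the second coordinate
axis inside `[-h, h]`, adding the vertical segment `{0} × [-τ, τ]` multiplies the area by at least
`1 + τ / h`.

Sketch. `section_diam`: if `(a, b₁), (a, b₂) ∈ A` then `(-a, -b₂) ∈ A` and the midpoint
`(0, (b₁ - b₂) / 2)` of `(a, b₁)` and `(-a, -b₂)` is in `A`, so `|b₁ - b₂| / 2 ≤ h`.
`section_le`: the section `Prod.mk a ⁻¹' A` is compact and convex; if it is empty there is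
nothing to prove, otherwise it is `Icc b₁ b₂` with `b₂ - b₁ ≤ 2 h`, the section of `Q` contains
`Icc (b₁ - τ) (b₂ + τ)`, and `(1 + τ / h) (b₂ - b₁) ≤ b₂ - b₁ + 2 τ`.
-/

open MeasureTheory Set
open scoped ENNReal

namespace Vale.Agent.H9.SymCyl

/-- Every vertical section of a centrally symmetric convex set which meets the vertical axis
inside `[-h, h]` has diameter at most `2 h`. -/
theorem section_diam {A : Set (ℝ × ℝ)} (hAc : Convex ℝ A) (hAs : ∀ p ∈ A, -p ∈ A) {h : ℝ}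
    (hax : ∀ b : ℝ, ((0 : ℝ), b) ∈ A → |b| ≤ h) {a b₁ b₂ : ℝ} (h₁ : (a, b₁) ∈ A)
    (h₂ : (a, b₂) ∈ A) : |b₁ - b₂| ≤ 2 * h := by
  have h₂' : -((a, b₂) : ℝ × ℝ) ∈ A := hAs _ h₂
  have hmid := hAc h₁ h₂' (by norm_num : (0 : ℝ) ≤ 1 / 2) (by norm_num : (0 : ℝ) ≤ 1 / 2)
    (by norm_num : (1 / 2 : ℝ) + 1 / 2 = 1)
  have heq : (1 / 2 : ℝ) • ((a, b₁) : ℝ × ℝ) + (1 / 2 : ℝ) • -((a, b₂) : ℝ × ℝ)
      = ((0 : ℝ), (b₁ - b₂) / 2) := by
    ext
    · simp
    · simp only [Prod.snd_add, Prod.smul_snd, Prod.snd_neg, smul_eq_mul]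
      ring
  rw [heq] at hmid
  have hb := hax _ hmid
  rw [abs_div, abs_of_pos (by norm_num : (0 : ℝ) < 2)] at hb
  linarith [(div_le_iff₀ (by norm_num : (0 : ℝ) < 2)).1 hb]

/-- Sections: the vertical section of `Q` over `a` is at least `1 + τ / h` times as long as the
vertical section of `A` over `a`. -/
theorem section_le {A Q : Set (ℝ × ℝ)} (hA : IsCompact A) (hAc : Convex ℝ A)
    (hAs : ∀ p ∈ A, -p ∈ A) {h τ : ℝ} (hh : 0 < h) (hτ : 0 ≤ τ)
    (hax : ∀ b : ℝ, ((0 : ℝ), b) ∈ A → |b| ≤ h)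
    (hsub : ∀ p ∈ A, ∀ c : ℝ, |c| ≤ τ → (p.1, p.2 + c) ∈ Q) (a : ℝ) :
    ENNReal.ofReal (1 + τ / h) * volume (Prod.mk a ⁻¹' A) ≤ volume (Prod.mk a ⁻¹' Q) := by
  have hcomp : IsCompact (Prod.mk a ⁻¹' A) := Vale.Agent.H76.section_isCompact hA a
  have hconv : Convex ℝ (Prod.mk a ⁻¹' A) := Vale.Agent.H76.section_convex hAc a
  by_cases hne : (Prod.mk a ⁻¹' A).Nonempty
  · obtain ⟨b₁, hb₁, hmin⟩ := hcomp.exists_isLeast hne
    obtain ⟨b₂, hb₂, hmax⟩ := hcomp.exists_isGreatest hne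
    have hsubA : Prod.mk a ⁻¹' A ⊆ Icc b₁ b₂ := fun w hw => ⟨hmin hw, hmax hw⟩
    have hIcc : Icc b₁ b₂ ⊆ Prod.mk a ⁻¹' A := hconv.ordConnected.out hb₁ hb₂
    have h12 : b₁ ≤ b₂ := hmin hb₂
    have hdiam : b₂ - b₁ ≤ 2 * h := by
      have := section_diam hAc hAs hax (show (a, b₂) ∈ A from hb₂) (show (a, b₁) ∈ A from hb₁)
      exact (le_abs_self _).trans this
    have hsubQ : Icc (b₁ - τ) (b₂ + τ) ⊆ Prod.mk a ⁻¹' Q := by
      intro y hy
      have hb : max b₁ (min y b₂) ∈ Icc b₁ b₂ :=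
        ⟨le_max_left _ _, max_le h12 (min_le_right _ _)⟩
      have hbA : (a, max b₁ (min y b₂)) ∈ A := hIcc hb
      have hc : |y - max b₁ (min y b₂)| ≤ τ := by
        rw [abs_le]
        constructor
        · rcases le_total y b₂ with h1 | h1
          · rw [min_eq_left h1]
            rcases le_total b₁ y with h2 | h2
            · rw [max_eq_right h2]; linarith
            · rw [max_eq_left h2]; linarith [hy.1]
          · rw [min_eq_right h1, max_eq_right h12]; linarith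
        · rcases le_total y b₂ with h1 | h1
          · rw [min_eq_left h1]
            rcases le_total b₁ y with h2 | h2
            · rw [max_eq_right h2]; linarith
            · rw [max_eq_left h2]; linarith
          · rw [min_eq_right h1, max_eq_right h12]; linarith [hy.2]
      have := hsub _ hbA _ hc
      simp only [add_sub_cancel] at this
      exact this
    have hpos : 0 ≤ 1 + τ / h := by positivity
    calc ENNReal.ofReal (1 + τ / h) * volume (Prod.mk a ⁻¹' A)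
        ≤ ENNReal.ofReal (1 + τ / h) * volume (Icc b₁ b₂) := by gcongr
      _ = ENNReal.ofReal (1 + τ / h) * ENNReal.ofReal (b₂ - b₁) := by rw [Real.volume_Icc]
      _ = ENNReal.ofReal ((1 + τ / h) * (b₂ - b₁)) := (ENNReal.ofReal_mul hpos).symm
      _ ≤ ENNReal.ofReal (b₂ + τ - (b₁ - τ)) := by
          apply ENNReal.ofReal_le_ofReal
          have h3 : τ / h * (b₂ - b₁) ≤ τ / h * (2 * h) :=
            mul_le_mul_of_nonneg_left hdiam (by positivity)
          have h4 : τ / h * (2 * h) = 2 * τ := by field_simp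
          nlinarith
      _ = volume (Icc (b₁ - τ) (b₂ + τ)) := Real.volume_Icc.symm
      _ ≤ volume (Prod.mk a ⁻¹' Q) := measure_mono hsubQ
  · rw [not_nonempty_iff_eq_empty] at hne
    rw [hne, measure_empty, mul_zero]
    exact zero_le

/-- **Slicing lemma.** -/
theorem slice_lemma {A Q : Set (ℝ × ℝ)} (hA : IsCompact A) (hAc : Convex ℝ A)
    (hAs : ∀ p ∈ A, -p ∈ A) {h τ : ℝ} (hh : 0 < h) (hτ : 0 ≤ τ)
    (hax : ∀ b : ℝ, ((0 : ℝ), b) ∈ A → |b| ≤ h)
    (hQ : MeasurableSet Q)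
    (hsub : ∀ p ∈ A, ∀ c : ℝ, |c| ≤ τ → (p.1, p.2 + c) ∈ Q) :
    ENNReal.ofReal (1 + τ / h) * volume A ≤ volume Q := by
  have hAm : MeasurableSet A := hA.isClosed.measurableSet
  rw [Measure.volume_eq_prod, Measure.prod_apply hAm, Measure.prod_apply hQ,
    ← lintegral_const_mul' _ _ ENNReal.ofReal_ne_top]
  exact lintegral_mono fun a => section_le hA hAc hAs hh hτ hax hsub a

end Vale.Agent.H9.SymCyl
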